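import Vale.Agent.P256L.Shd

/-!
# P256: the lifting argument
-/

namespace Vale.Agent.P256L

open Matrix

variable {m n : ℕ}

/-- value of the quadratic map -/
def qval (S : Fin m → Matrix (Fin n) (Fin n) ℝ) (x : Fin n → ℝ) : Fin m → ℝ :=
  fun i => ∑ a, ∑ b, S i a b * (x a * x b)

/-- its linear extension to matrices -/
def qlin (S : Fin m → Matrix (Fin n) (Fin n) ℝ) : Matrix (Fin n) (Fin n) ℝ →ₗ[ℝ] (Fin m → ℝ) where
  toFun M := fun i => ∑ a, ∑ b, S i a b * M a b
  map_add' M M' := by
    funext i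
    simp only [Matrix.add_apply, mul_add, Finset.sum_add_distrib, Pi.add_apply]
  map_smul' r M := by
    funext i
    simp only [Matrix.smul_apply, smul_eq_mul, Pi.smul_apply, RingHom.id_apply, Finset.mul_sum]
    refine Finset.sum_congr rfl fun a _ => Finset.sum_congr rfl fun b _ => ?_
    ring

theorem qlin_apply (S : Fin m → Matrix (Fin n) (Fin n) ℝ) (M : Matrix (Fin n) (Fin n) ℝ)
    (i : Fin m) : qlin S M i = ∑ a, ∑ b, S i a b * M a b := rfl

theorem qlin_outer (S : Fin m → Matrix (Fin n) (Fin n) ℝ) (x : Fin n → ℝ) :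
    qlin S (Matrix.of fun a b => x a * x b) = qval S x := rfl

theorem qval_smul (S : Fin m → Matrix (Fin n) (Fin n) ℝ) (r : ℝ) (x : Fin n → ℝ) :
    qval S (r • x) = (r ^ 2) • qval S x := by
  funext i
  simp only [qval, Pi.smul_apply, smul_eq_mul, Finset.mul_sum]
  refine Finset.sum_congr rfl fun a _ => Finset.sum_congr rfl fun b _ => ?_
  ring

theorem qval_par (S : Fin m → Matrix (Fin n) (Fin n) ℝ) (x y : Fin n → ℝ) :
    qval S (x + y) + qval S (x - y) = (2 : ℝ) • qval S x + (2 : ℝ) • qval S y := by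
  funext i
  simp only [qval, Pi.add_apply, Pi.sub_apply, Pi.smul_apply, smul_eq_mul, Finset.mul_sum,
    ← Finset.sum_add_distrib]
  refine Finset.sum_congr rfl fun a _ => Finset.sum_congr rfl fun b _ => ?_
  ring

/-- the inequality `q(x+y) ≤ (1 + c²) q(x) + (1 + c⁻²) q(y)` as an identity -/
theorem qval_young (S : Fin m → Matrix (Fin n) (Fin n) ℝ) (x y : Fin n → ℝ) {c : ℝ} (hc : c ≠ 0) :
    -qval S (x + y) = -((1 + c ^ 2) • qval S x) + (1 + (c⁻¹) ^ 2) • (-qval S y)
      + qval S (c • x - c⁻¹ • y) := by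
  funext i
  simp only [qval, Pi.add_apply, Pi.sub_apply, Pi.neg_apply, Pi.smul_apply, smul_eq_mul,
    Finset.mul_sum, ← Finset.sum_neg_distrib, ← Finset.sum_add_distrib]
  refine Finset.sum_congr rfl fun a _ => Finset.sum_congr rfl fun b _ => ?_
  have h1 : c * c⁻¹ = 1 := mul_inv_cancel₀ hc
  linear_combination (S i a b * x a * y b + S i a b * x b * y a) * h1

/-- a convex cone containing `e` and closed in the direction of `e` -/
structure ConeData (K : Set (Fin m → ℝ)) (e : Fin m → ℝ) : Prop where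
  zero : 0 ∈ K
  smul : ∀ {x : Fin m → ℝ} {r : ℝ}, 0 < r → x ∈ K → r • x ∈ K
  add : ∀ {x y : Fin m → ℝ}, x ∈ K → y ∈ K → x + y ∈ K
  lim : ∀ {x : Fin m → ℝ}, (∀ δ : ℝ, 0 < δ → x + δ • e ∈ K) → x ∈ K
  dir : e ∈ K

theorem ConeData.smul' {K : Set (Fin m → ℝ)} {e : Fin m → ℝ} (h : ConeData K e)
    {x : Fin m → ℝ} {r : ℝ} (hr : 0 ≤ r) (hx : x ∈ K) : r • x ∈ K := by
  rcases hr.eq_or_lt with h0 | h0
  · rw [← h0, zero_smul]
    exact h.zero
  · exact h.smul h0 hx

theorem ConeData.sum {K : Set (Fin m → ℝ)} {e : Fin m → ℝ} (h : ConeData K e) {ι : Type}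
    (s : Finset ι) (f : ι → Fin m → ℝ) (hf : ∀ i ∈ s, f i ∈ K) : ∑ i ∈ s, f i ∈ K := by
  classical
  induction s using Finset.induction_on with
  | empty =>
    rw [Finset.sum_empty]
    exact h.zero
  | insert a s ha ih =>
    rw [Finset.sum_insert ha]
    exact h.add (hf a (Finset.mem_insert_self a s))
      (ih fun i hi => hf i (Finset.mem_insert_of_mem hi))

/-- the linear extension maps positive semidefinite matrices into the cone -/
theorem qlin_psd {K : Set (Fin m → ℝ)} {e : Fin m → ℝ} (h : ConeData K e)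
    {S : Fin m → Matrix (Fin n) (Fin n) ℝ} (hq : ∀ x, qval S x ∈ K)
    {M : Matrix (Fin n) (Fin n) ℝ} (hM : M.PosSemidef) : qlin S M ∈ K := by
  obtain ⟨B, hB⟩ := psd_decomp hM
  have e1 : qlin S M = ∑ k, qval S (B k) := by
    funext i
    rw [qlin_apply, Finset.sum_apply]
    simp only [qval]
    rw [Finset.sum_comm]
    refine (Finset.sum_congr rfl fun b _ => ?_ : _ = ∑ b, ∑ k, ∑ a, S i a b * (B k a * B k b)).trans
      ?_
    · rw [Finset.sum_comm]
      refine Finset.sum_congr rfl fun a _ => ?_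
      rw [hB a b, Finset.mul_sum]
    · rw [Finset.sum_comm]
      exact Finset.sum_congr rfl fun k _ => Finset.sum_comm
  rw [e1]
  exact h.sum _ _ fun k _ => hq _

/-- the block matrix `[[t, xᵀ], [x, M]]` -/
def blk (t : ℝ) (x : Fin n → ℝ) (M : Matrix (Fin n) (Fin n) ℝ) :
    Matrix (Unit ⊕ Fin n) (Unit ⊕ Fin n) ℝ :=
  fromBlocks (Matrix.of fun _ _ => t) (Matrix.of fun _ j => x j) (Matrix.of fun i _ => x i) M

theorem blk_psd {t : ℝ} {x : Fin n → ℝ} {M : Matrix (Fin n) (Fin n) ℝ} :
    (blk t x M).PosSemidef ↔ M.IsSymm ∧ ∀ (s : ℝ) (v : Fin n → ℝ),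
      0 ≤ t * s ^ 2 + 2 * s * (∑ j, x j * v j) + ∑ i, ∑ j, M i j * (v i * v j) := by
  rw [psd_iff]
  have hs : (blk t x M).IsSymm ↔ M.IsSymm := by
    unfold Matrix.IsSymm blk
    rw [fromBlocks_transpose, fromBlocks_inj]
    constructor
    · intro h
      exact h.2.2.2
    · intro h
      exact ⟨rfl, rfl, rfl, h⟩
  have hq : ∀ w : Unit ⊕ Fin n → ℝ, ∑ i, ∑ j, blk t x M i j * (w i * w j)
      = t * (w (Sum.inl ())) ^ 2 + 2 * w (Sum.inl ()) * (∑ j, x j * w (Sum.inr j))
        + ∑ i, ∑ j, M i j * (w (Sum.inr i) * w (Sum.inr j)) := by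
    intro w
    rw [Fintype.sum_sum_type]
    simp only [Fintype.sum_sum_type, Finset.univ_unique, Finset.sum_singleton]
    have e1 : blk t x M (Sum.inl default) (Sum.inl default) = t := rfl
    have e2 : ∀ j, blk t x M (Sum.inl default) (Sum.inr j) = x j := fun _ => rfl
    have e3 : ∀ i, blk t x M (Sum.inr i) (Sum.inl default) = x i := fun _ => rfl
    have e4 : ∀ i j, blk t x M (Sum.inr i) (Sum.inr j) = M i j := fun _ _ => rfl
    simp only [e1, e2, e3, e4, Finset.sum_add_distrib]
    have e5 : ∑ j, x j * (w (Sum.inl default) * w (Sum.inr j))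
        = w (Sum.inl ()) * ∑ j, x j * w (Sum.inr j) := by
      rw [Finset.mul_sum]
      refine Finset.sum_congr rfl fun j _ => ?_
      change x j * (w (Sum.inl ()) * w (Sum.inr j)) = _
      ring
    have e6 : ∑ j, x j * (w (Sum.inr j) * w (Sum.inl default))
        = w (Sum.inl ()) * ∑ j, x j * w (Sum.inr j) := by
      rw [Finset.mul_sum]
      refine Finset.sum_congr rfl fun j _ => ?_
      change x j * (w (Sum.inr j) * w (Sum.inl ())) = _
      ring
    rw [e5, e6]
    change t * (w (Sum.inl ()) * w (Sum.inl ())) + _ + (_ + _) = _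
    ring
  rw [hs]
  constructor
  · rintro ⟨h1, h2⟩
    refine ⟨h1, fun s v => ?_⟩
    have h3 := h2 (Sum.elim (fun _ => s) v)
    rw [hq] at h3
    exact h3
  · rintro ⟨h1, h2⟩
    refine ⟨h1, fun w => ?_⟩
    rw [hq]
    exact h2 _ _

theorem blk_zero {t : ℝ} {x : Fin n → ℝ} {M : Matrix (Fin n) (Fin n) ℝ}
    (h : (blk t x M).PosSemidef) : 0 ≤ t := by
  have h1 := (blk_psd.mp h).2 1 0
  simpa using h1

theorem blk_nul {x : Fin n → ℝ} {M : Matrix (Fin n) (Fin n) ℝ}
    (h : (blk 0 x M).PosSemidef) : x = 0 := by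
  funext j
  by_contra hj
  have h1 := fun s : ℝ => (blk_psd.mp h).2 s (Pi.single j 1)
  have e1 : ∑ k, x k * (Pi.single j 1 : Fin n → ℝ) k = x j := by
    rw [Finset.sum_eq_single j]
    · rw [Pi.single_eq_same, mul_one]
    · intro k _ hk
      rw [Pi.single_eq_of_ne hk, mul_zero]
    · intro h0
      exact absurd (Finset.mem_univ _) h0
  rw [e1] at h1
  set r := ∑ i, ∑ k, M i k * ((Pi.single j 1 : Fin n → ℝ) i * (Pi.single j 1 : Fin n → ℝ) k) with hr
  have hxj : x j ≠ 0 := hj
  have h2 := h1 (-(r + 1) / (2 * x j))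
  have e2 : 0 * (-(r + 1) / (2 * x j)) ^ 2 + 2 * (-(r + 1) / (2 * x j)) * x j + r = -1 := by
    field_simp
    ring
  rw [e2] at h2
  linarith

theorem blk_schur {t : ℝ} (ht : 0 < t) {x : Fin n → ℝ} {M : Matrix (Fin n) (Fin n) ℝ}
    (h : (blk t x M).PosSemidef) :
    (M - t⁻¹ • Matrix.of fun a b => x a * x b).PosSemidef := by
  rw [psd_iff]
  obtain ⟨h1, h2⟩ := blk_psd.mp h
  constructor
  · unfold Matrix.IsSymm
    rw [transpose_sub, transpose_smul, h1]
    congr 2
    ext a b
    simp only [transpose_apply, Matrix.of_apply]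
    ring
  · intro v
    have h3 := h2 (-(t⁻¹ * ∑ j, x j * v j)) v
    have e1 : ∑ i, ∑ j, (M - t⁻¹ • Matrix.of fun a b => x a * x b) i j * (v i * v j)
        = ∑ i, ∑ j, M i j * (v i * v j) - t⁻¹ * (∑ j, x j * v j) ^ 2 := by
      have e2 : (∑ j, x j * v j) ^ 2 = ∑ i, ∑ j, (x i * v i) * (x j * v j) := by
        rw [sq, Finset.sum_mul_sum]
      rw [e2, Finset.mul_sum, ← Finset.sum_sub_distrib]
      refine Finset.sum_congr rfl fun i _ => ?_
      rw [Finset.mul_sum, ← Finset.sum_sub_distrib]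
      refine Finset.sum_congr rfl fun j _ => ?_
      simp only [Matrix.sub_apply, Matrix.smul_apply, Matrix.of_apply, smul_eq_mul]
      ring
    rw [e1]
    have e3 : t * (-(t⁻¹ * ∑ j, x j * v j)) ^ 2 + 2 * (-(t⁻¹ * ∑ j, x j * v j)) * (∑ j, x j * v j)
        = - (t⁻¹ * (∑ j, x j * v j) ^ 2) := by
      field_simp
      ring
    rw [e3] at h3
    linarith

theorem blk_outer {t : ℝ} (ht : 0 < t) (x : Fin n → ℝ) :
    (blk t x (t⁻¹ • Matrix.of fun a b => x a * x b)).PosSemidef := by
  rw [blk_psd]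
  constructor
  · unfold Matrix.IsSymm
    rw [transpose_smul]
    congr 1
    ext a b
    simp only [transpose_apply, Matrix.of_apply]
    ring
  · intro s v
    have e1 : ∑ i, ∑ j, (t⁻¹ • Matrix.of fun a b => x a * x b) i j * (v i * v j)
        = t⁻¹ * (∑ j, x j * v j) ^ 2 := by
      rw [sq, Finset.sum_mul_sum, Finset.mul_sum]
      refine Finset.sum_congr rfl fun i _ => ?_
      rw [Finset.mul_sum]
      refine Finset.sum_congr rfl fun j _ => ?_
      simp only [Matrix.smul_apply, Matrix.of_apply, smul_eq_mul]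
      ring
    rw [e1]
    have e2 : t * s ^ 2 + 2 * s * (∑ j, x j * v j) + t⁻¹ * (∑ j, x j * v j) ^ 2
        = t⁻¹ * (t * s + ∑ j, x j * v j) ^ 2 := by
      field_simp
      ring
    rw [e2]
    positivity

/-- the subspace `{x : -q(x) ∈ K}` -/
def nullSpace {K : Set (Fin m → ℝ)} {e : Fin m → ℝ} (h : ConeData K e)
    {S : Fin m → Matrix (Fin n) (Fin n) ℝ} (hq : ∀ x, qval S x ∈ K) :
    Submodule ℝ (Fin n → ℝ) where
  carrier := {x | -qval S x ∈ K}
  zero_mem' := by
    change -qval S 0 ∈ K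
    have e1 : -qval S (0 : Fin n → ℝ) = 0 := by
      have := qval_smul S 0 0
      rw [zero_smul] at this
      rw [this]
      simp
    rw [e1]
    exact h.zero
  add_mem' := by
    intro x y hx hy
    change -qval S (x + y) ∈ K
    have e1 : -qval S (x + y) = (2 : ℝ) • (-qval S x) + (2 : ℝ) • (-qval S y) + qval S (x - y) := by
      have := qval_par S x y
      have e2 : qval S (x + y) = (2 : ℝ) • qval S x + (2 : ℝ) • qval S y - qval S (x - y) :=
        eq_sub_of_add_eq this
      rw [e2, smul_neg, smul_neg]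
      abel
    rw [e1]
    exact h.add (h.add (h.smul (by norm_num) hx) (h.smul (by norm_num) hy)) (hq _)
  smul_mem' := by
    intro r x hx
    change -qval S (r • x) ∈ K
    rw [qval_smul, ← smul_neg]
    exact h.smul' (sq_nonneg r) hx

/-- THE LIFT.  If `K` is a spectrahedral shadow, a convex cone containing all the values of the
quadratic map `q`, then `{(t, x) : t ≥ 0, t² e - q(x) ∈ K}` is a spectrahedral shadow. -/
theorem core_lift {K : Set (Fin m → ℝ)} {e : Fin m → ℝ} (h : ConeData K e) (hK : Shd K)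
    {S : Fin m → Matrix (Fin n) (Fin n) ℝ} (hq : ∀ x, qval S x ∈ K) :
    Shd {v : Fin (n + 1) → ℝ | 0 ≤ v 0 ∧ (v 0) ^ 2 • e - qval S (fun j => v j.succ) ∈ K} := by
  let N := nullSpace h hq
  let W : Type := Matrix (Fin n) (Fin n) ℝ × N
  -- the block matrix as a linear map
  let G : ((Fin (n + 1) → ℝ) × (Matrix (Fin n) (Fin n) ℝ × N)) →ₗ[ℝ]
      Matrix (Unit ⊕ Fin n) (Unit ⊕ Fin n) ℝ :=
    { toFun := fun z => blk (z.1 0) (fun j => z.1 j.succ - (z.2.2 : Fin n → ℝ) j)
        (z.2.1 + z.2.1ᵀ)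
      map_add' := fun z w => by
        unfold blk
        rw [fromBlocks_add]
        congr 1
        · ext i j
          simp only [Matrix.of_apply, Matrix.add_apply, Prod.fst_add, Prod.snd_add, Pi.add_apply,
            Submodule.coe_add]
          ring
        · ext i j
          simp only [Matrix.of_apply, Matrix.add_apply, Prod.fst_add, Prod.snd_add, Pi.add_apply,
            Submodule.coe_add]
          ring
        · ext i j
          simp only [Matrix.add_apply, Prod.fst_add, Prod.snd_add, transpose_apply]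
          ring
      map_smul' := fun r z => by
        unfold blk
        rw [RingHom.id_apply, fromBlocks_smul]
        congr 1
        · ext i j
          simp only [Matrix.of_apply, Matrix.smul_apply, Prod.smul_fst, Prod.smul_snd,
            Pi.smul_apply, Submodule.coe_smul, smul_eq_mul]
          ring
        · ext i j
          simp only [Matrix.of_apply, Matrix.smul_apply, Prod.smul_fst, Prod.smul_snd,
            Pi.smul_apply, Submodule.coe_smul, smul_eq_mul]
          ring
        · ext i j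
          simp only [Matrix.add_apply, Matrix.smul_apply, Prod.smul_fst, Prod.smul_snd,
            transpose_apply, smul_eq_mul]
          ring }
  have hG : ∀ z, (G z).IsSymm := by
    intro z
    change (blk (z.1 0) (fun j => z.1 j.succ - (z.2.2 : Fin n → ℝ) j)
        (z.2.1 + z.2.1ᵀ)).IsSymm
    unfold Matrix.IsSymm blk
    rw [fromBlocks_transpose, transpose_add, transpose_transpose, add_comm z.2.1ᵀ z.2.1]
    rfl
  let T : ((Fin (n + 1) → ℝ) × (Matrix (Fin n) (Fin n) ℝ × N)) →ₗ[ℝ] (Fin m → ℝ) :=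
    { toFun := fun z => (z.1 0) • e - qlin S (z.2.1 + z.2.1ᵀ)
      map_add' := fun z w => by
        have e1 : (z + w).2.1 + (z + w).2.1ᵀ = (z.2.1 + z.2.1ᵀ) + (w.2.1 + w.2.1ᵀ) := by
          rw [Prod.snd_add, Prod.fst_add, transpose_add]
          abel
        rw [e1, map_add, Prod.fst_add, Pi.add_apply, add_smul]
        abel
      map_smul' := fun r z => by
        have e1 : (r • z).2.1 + (r • z).2.1ᵀ = r • (z.2.1 + z.2.1ᵀ) := by
          rw [Prod.smul_snd, Prod.smul_fst, transpose_smul, smul_add]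
        rw [e1, map_smul, Prod.smul_fst, Pi.smul_apply, RingHom.id_apply, smul_sub, smul_eq_mul,
          mul_smul] }
  have h1 := ((Shd.of_linear G hG).inter (hK.comap T)).proj
  refine h1.congr fun v => ?_
  rw [Set.mem_ofPred_eq, Set.mem_ofPred_eq]
  constructor
  · rintro ⟨ht, hv⟩
    rcases ht.eq_or_lt with h0 | h0
    · -- t = 0
      have hN : -qval S (fun j => v j.succ) ∈ K := by
        rw [← h0] at hv
        simpa using hv
      refine ⟨(0, ⟨fun j => v j.succ, hN⟩), ?_, ?_⟩
      · change (blk (v 0) (fun j => v j.succ - v j.succ) ((0 : Matrix (Fin n) (Fin n) ℝ)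
          + (0 : Matrix (Fin n) (Fin n) ℝ)ᵀ)).PosSemidef
        have e1 : blk (v 0) (fun j : Fin n => v j.succ - v j.succ)
            ((0 : Matrix (Fin n) (Fin n) ℝ) + (0 : Matrix (Fin n) (Fin n) ℝ)ᵀ) = 0 := by
          rw [← h0]
          unfold blk
          ext i j
          rcases i with i | i <;> rcases j with j | j <;> simp
        rw [e1]
        exact Matrix.PosSemidef.zero
      · change (v 0) • e - qlin S ((0 : Matrix (Fin n) (Fin n) ℝ)
          + (0 : Matrix (Fin n) (Fin n) ℝ)ᵀ) ∈ K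
        have e1 : (0 : Matrix (Fin n) (Fin n) ℝ) + (0 : Matrix (Fin n) (Fin n) ℝ)ᵀ = 0 := by simp
        rw [e1, map_zero, ← h0, zero_smul, sub_zero]
        exact h.zero
    · -- t > 0
      set x : Fin n → ℝ := fun j => v j.succ with hx
      set Y : Matrix (Fin n) (Fin n) ℝ := (2⁻¹ * (v 0)⁻¹) • Matrix.of fun a b => x a * x b with hY
      have hYY : Y + Yᵀ = (v 0)⁻¹ • Matrix.of fun a b => x a * x b := by
        rw [hY]
        ext a b
        simp only [Matrix.add_apply, transpose_apply, Matrix.smul_apply, Matrix.of_apply,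
          smul_eq_mul]
        ring
      refine ⟨(Y, 0), ?_, ?_⟩
      · change (blk (v 0) (fun j => v j.succ - ((0 : N) : Fin n → ℝ) j) (Y + Yᵀ)).PosSemidef
        rw [hYY]
        have e1 : (fun j : Fin n => v j.succ - ((0 : N) : Fin n → ℝ) j) = x := by
          funext j
          simp [hx]
        rw [e1]
        exact blk_outer h0 x
      · change (v 0) • e - qlin S (Y + Yᵀ) ∈ K
        rw [hYY, map_smul, qlin_outer]
        have e1 : (v 0) • e - (v 0)⁻¹ • qval S x = (v 0)⁻¹ • ((v 0) ^ 2 • e - qval S x) := by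
          rw [smul_sub, smul_smul]
          congr 2
          field_simp
        rw [e1]
        exact h.smul (inv_pos.mpr h0) hv
  · rintro ⟨⟨Y, w⟩, hG1, hT1⟩
    change (blk (v 0) (fun j => v j.succ - (w : Fin n → ℝ) j) (Y + Yᵀ)).PosSemidef at hG1
    change (v 0) • e - qlin S (Y + Yᵀ) ∈ K at hT1
    have ht := blk_zero hG1
    refine ⟨ht, ?_⟩
    set x : Fin n → ℝ := fun j => v j.succ with hx
    set x' : Fin n → ℝ := fun j => v j.succ - (w : Fin n → ℝ) j with hx'
    have hxx : x = x' + (w : Fin n → ℝ) := by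
      funext j
      simp [hx, hx']
    have hw : -qval S (w : Fin n → ℝ) ∈ K := w.2
    rcases ht.eq_or_lt with h0 | h0
    · rw [← h0] at hG1
      have h2 := blk_nul hG1
      rw [hxx, h2, zero_add, ← h0]
      simpa using hw
    · have h2 := blk_schur h0 hG1
      have h3 := qlin_psd h hq h2
      have h4 : (v 0) ^ 2 • e - qval S x' ∈ K := by
        have e1 : (v 0) ^ 2 • e - qval S x' = (v 0) • (((v 0) • e - qlin S (Y + Yᵀ))
            + qlin S ((Y + Yᵀ) - (v 0)⁻¹ • Matrix.of fun a b => x' a * x' b)) := by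
          rw [map_sub, map_smul, qlin_outer]
          have e2 : v 0 • e - qlin S (Y + Yᵀ) + (qlin S (Y + Yᵀ) - (v 0)⁻¹ • qval S x')
              = v 0 • e - (v 0)⁻¹ • qval S x' := by abel
          rw [e2, smul_sub, smul_smul, smul_smul, mul_inv_cancel₀ h0.ne', one_smul, sq]
        rw [e1]
        exact h.smul h0 (h.add hT1 h3)
      refine h.lim fun δ hδ => ?_
      obtain ⟨c, hc0, hc⟩ : ∃ c : ℝ, 0 < c ∧ c ^ 2 * (v 0) ^ 2 = δ := by
        refine ⟨Real.sqrt δ / v 0, by positivity, ?_⟩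
        rw [div_pow, Real.sq_sqrt hδ.le]
        field_simp
      have e1 : (v 0) ^ 2 • e - qval S x + δ • e = (1 + c ^ 2) • ((v 0) ^ 2 • e - qval S x')
          + ((1 + (c⁻¹) ^ 2) • (-qval S (w : Fin n → ℝ))
            + qval S (c • x' - c⁻¹ • (w : Fin n → ℝ))) := by
        rw [hxx]
        have e2 := qval_young S x' (w : Fin n → ℝ) hc0.ne'
        have e3 : (v 0) ^ 2 • e - qval S (x' + (w : Fin n → ℝ)) + δ • e
            = ((v 0) ^ 2 • e + δ • e) + -qval S (x' + (w : Fin n → ℝ)) := by abel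
        have e4 : (v 0) ^ 2 • e + δ • e = ((1 + c ^ 2) * (v 0) ^ 2) • e := by
          rw [← add_smul, ← hc]
          congr 1
          ring
        rw [e3, e2, e4, smul_sub, smul_smul]
        abel
      rw [e1]
      exact h.add (h.smul (by positivity) h4) (h.add (h.smul (by positivity) hw) (hq _))

end Vale.Agent.P256L
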