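import Mathlib

/-!
# P256: hyperbolic polynomials, hyperbolicity cones, spectrahedral shadows
-/

namespace Vale.Agent.P256L

/-- `p` is hyperbolic with respect to `e`: `p` is homogeneous, `p(e) > 0` and for every real `x`
all complex roots of `z ↦ p(z e - x)` are real. -/
structure IsHyperbolic {n : ℕ} (p : MvPolynomial (Fin n) ℝ) (e : Fin n → ℝ) : Prop where
  homogeneous : ∃ d : ℕ, p.IsHomogeneous d
  pos : 0 < MvPolynomial.eval e p
  real_rooted : ∀ (x : Fin n → ℝ) (z : ℂ),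
    MvPolynomial.aeval (fun i => z * (e i : ℂ) - (x i : ℂ)) p = 0 → z.im = 0

/-- the closed hyperbolicity cone `K(p, e)` -/
def hyperbolicityCone {n : ℕ} (p : MvPolynomial (Fin n) ℝ) (e : Fin n → ℝ) : Set (Fin n → ℝ) :=
  {x | ∀ t : ℝ, MvPolynomial.eval (fun i => t * e i - x i) p = 0 → 0 ≤ t}

/-- `S` is a spectrahedral shadow -/
def IsSpectrahedralShadow {n : ℕ} (S : Set (Fin n → ℝ)) : Prop :=
  ∃ (N a : ℕ) (A₀ : Matrix (Fin N) (Fin N) ℝ) (A : Fin n → Matrix (Fin N) (Fin N) ℝ)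
    (B : Fin a → Matrix (Fin N) (Fin N) ℝ),
    A₀.IsSymm ∧ (∀ i, (A i).IsSymm) ∧ (∀ j, (B j).IsSymm) ∧
    S = {x | ∃ u : Fin a → ℝ, (A₀ + ∑ i, x i • A i + ∑ j, u j • B j).PosSemidef}

/-- the quadratic form `∑ S a b x_a x_b` as a polynomial -/
noncomputable def quadForm {n : ℕ} (S : Matrix (Fin n) (Fin n) ℝ) : MvPolynomial (Fin n) ℝ :=
  ∑ a, ∑ b, MvPolynomial.C (S a b) * (MvPolynomial.X a * MvPolynomial.X b)

/-- The polynomial `P(t² e - q(x))` in the variables `t = X 0`, `x_j = X (j+1)`, where `q` is the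
quadratic map whose `i`-th coordinate is the quadratic form with matrix `S i`. -/
noncomputable def quadLift {m n : ℕ} (P : MvPolynomial (Fin m) ℝ) (e : Fin m → ℝ)
    (S : Fin m → Matrix (Fin n) (Fin n) ℝ) : MvPolynomial (Fin (n + 1)) ℝ :=
  MvPolynomial.aeval (fun i => MvPolynomial.C (e i) * MvPolynomial.X 0 ^ 2
    - MvPolynomial.rename Fin.succ (quadForm (S i))) P

/-- the direction `(1, 0, …, 0)` -/
def dir (n : ℕ) : Fin (n + 1) → ℝ := fun i => if i = 0 then 1 else 0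

end Vale.Agent.P256L
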