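import Vale.Agent.P256L.Rule

/-!
# P256: definite determinantal polynomials
-/

namespace Vale.Agent.P256L

open Matrix

variable {m n N : ℕ}

/-- the polynomial `det(∑ x_i A_i)` -/
noncomputable def detPoly (A : Fin m → Matrix (Fin N) (Fin N) ℝ) : MvPolynomial (Fin m) ℝ :=
  (Matrix.of fun a b => ∑ i, MvPolynomial.C (A i a b) * MvPolynomial.X i).det

theorem aeval_detPoly {R : Type} [CommRing R] [Algebra ℝ R] (A : Fin m → Matrix (Fin N) (Fin N) ℝ)
    (v : Fin m → R) : MvPolynomial.aeval v (detPoly A)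
      = (Matrix.of fun a b => ∑ i, algebraMap ℝ R (A i a b) * v i).det := by
  unfold detPoly
  rw [AlgHom.map_det]
  congr 1
  ext a b
  simp only [AlgHom.mapMatrix_apply, Matrix.map_apply, Matrix.of_apply, map_sum, map_mul,
    MvPolynomial.aeval_C, MvPolynomial.aeval_X]

theorem eval_detPoly (A : Fin m → Matrix (Fin N) (Fin N) ℝ) (v : Fin m → ℝ) :
    MvPolynomial.eval v (detPoly A) = (∑ i, v i • A i).det := by
  rw [← aeval_real, aeval_detPoly]
  congr 1
  ext a b
  simp only [Matrix.of_apply, Algebra.algebraMap_self, RingHom.id_apply, Matrix.sum_apply,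
    Matrix.smul_apply, smul_eq_mul]
  exact Finset.sum_congr rfl fun i _ => mul_comm _ _

theorem detPoly_homogeneous (A : Fin m → Matrix (Fin N) (Fin N) ℝ) :
    (detPoly A).IsHomogeneous N := by
  unfold detPoly
  rw [Matrix.det_apply]
  rw [← MvPolynomial.mem_homogeneousSubmodule]
  refine Submodule.sum_mem _ fun σ _ => ?_
  rw [Units.smul_def]
  refine zsmul_mem ?_ _
  rw [MvPolynomial.mem_homogeneousSubmodule]
  have h1 : (∏ i : Fin N, (Matrix.of fun a b => ∑ i, MvPolynomial.C (A i a b) *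
      (MvPolynomial.X i : MvPolynomial (Fin m) ℝ)) (σ i) i).IsHomogeneous (∑ _i : Fin N, 1) := by
    refine MvPolynomial.IsHomogeneous.prod _ _ _ fun i _ => ?_
    rw [Matrix.of_apply]
    refine MvPolynomial.IsHomogeneous.sum _ _ _ fun j _ => ?_
    exact (MvPolynomial.isHomogeneous_X _ j).C_mul _
  simpa using h1

/-- the quadratic form of a real matrix -/
def qf (M : Matrix (Fin N) (Fin N) ℝ) (a : Fin N → ℝ) : ℝ := ∑ i, ∑ j, M i j * (a i * a j)

theorem qf_eq (M : Matrix (Fin N) (Fin N) ℝ) (a : Fin N → ℝ) : qf M a = a ⬝ᵥ (M *ᵥ a) := by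
  unfold qf
  simp only [dotProduct, mulVec, Finset.mul_sum]
  refine Finset.sum_congr rfl fun i _ => Finset.sum_congr rfl fun j _ => ?_
  ring

theorem qf_pos {M : Matrix (Fin N) (Fin N) ℝ} (hM : M.PosDef) {a : Fin N → ℝ} (ha : a ≠ 0) :
    0 < qf M a := by
  have h1 := hM.dotProduct_mulVec_pos ha
  rw [star_trivial, ← qf_eq] at h1
  exact h1

theorem qf_nonneg {M : Matrix (Fin N) (Fin N) ℝ} (hM : M.PosSemidef) (a : Fin N → ℝ) :
    0 ≤ qf M a := (psd_iff.mp hM).2 a

theorem qf_complex {M : Matrix (Fin N) (Fin N) ℝ} (hM : M.IsSymm) (v : Fin N → ℂ) :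
    ∑ i, ∑ j, (M i j : ℂ) * ((starRingEnd ℂ) (v i) * v j)
      = ((qf M (fun i => (v i).re) + qf M (fun i => (v i).im) : ℝ) : ℂ) := by
  refine Complex.ext ?_ ?_
  · rw [Complex.re_sum, Complex.ofReal_re]
    unfold qf
    rw [← Finset.sum_add_distrib]
    refine Finset.sum_congr rfl fun i _ => ?_
    rw [Complex.re_sum, ← Finset.sum_add_distrib]
    refine Finset.sum_congr rfl fun j _ => ?_
    rw [Complex.re_ofReal_mul, Complex.mul_re, Complex.conj_re, Complex.conj_im]
    ring
  · rw [Complex.im_sum, Complex.ofReal_im]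
    have h1 : ∀ i, (∑ j, (M i j : ℂ) * ((starRingEnd ℂ) (v i) * v j)).im
        = ∑ j, M i j * ((v i).re * (v j).im) - ∑ j, M i j * ((v i).im * (v j).re) := by
      intro i
      rw [Complex.im_sum, ← Finset.sum_sub_distrib]
      refine Finset.sum_congr rfl fun j _ => ?_
      rw [Complex.im_ofReal_mul, Complex.mul_im, Complex.conj_re, Complex.conj_im]
      ring
    simp only [h1]
    rw [Finset.sum_sub_distrib, sub_eq_zero, Finset.sum_comm]
    refine Finset.sum_congr rfl fun i _ => Finset.sum_congr rfl fun j _ => ?_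
    have h2 : M j i = M i j := hM.apply i j
    rw [h2]
    ring

theorem detPoly_root {A : Fin m → Matrix (Fin N) (Fin N) ℝ} (hA : ∀ i, (A i).IsSymm)
    {e : Fin m → ℝ} (he : (∑ i, e i • A i).PosDef) (x : Fin m → ℝ) (z : ℂ)
    (hz : MvPolynomial.aeval (fun i => z * (e i : ℂ) - (x i : ℂ)) (detPoly A) = 0) :
    ∃ p r : ℝ, 0 < p ∧ z * (p : ℂ) = (r : ℂ) ∧ ((∑ i, x i • A i).PosSemidef → 0 ≤ r) := by
  rw [aeval_detPoly] at hz
  obtain ⟨v, hv0, hv⟩ := Matrix.exists_mulVec_eq_zero_iff.mpr hz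
  have hsym : ∀ f : Fin m → ℝ, (∑ i, f i • A i).IsSymm := by
    intro f
    unfold Matrix.IsSymm
    rw [transpose_sum]
    refine Finset.sum_congr rfl fun i _ => ?_
    rw [transpose_smul, hA i]
  set E := ∑ i, e i • A i with hE
  set X := ∑ i, x i • A i with hX
  have hmat : (Matrix.of fun a b => ∑ i, algebraMap ℝ ℂ (A i a b) * (z * (e i : ℂ) - (x i : ℂ)))
      = Matrix.of fun a b => z * (E a b : ℂ) - (X a b : ℂ) := by
    ext a b
    rw [Matrix.of_apply, Matrix.of_apply, hE, hX, Matrix.sum_apply, Matrix.sum_apply]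
    simp only [Matrix.smul_apply, smul_eq_mul, Complex.ofReal_sum, Complex.ofReal_mul,
      Complex.coe_algebraMap, Finset.mul_sum, ← Finset.sum_sub_distrib]
    refine Finset.sum_congr rfl fun i _ => ?_
    ring
  rw [hmat] at hv
  have hsum : z * (∑ i, ∑ j, (E i j : ℂ) * ((starRingEnd ℂ) (v i) * v j))
      = ∑ i, ∑ j, (X i j : ℂ) * ((starRingEnd ℂ) (v i) * v j) := by
    rw [← sub_eq_zero, Finset.mul_sum, ← Finset.sum_sub_distrib]
    refine Finset.sum_eq_zero fun i _ => ?_
    have h1 := congrFun hv i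
    simp only [mulVec, dotProduct, Matrix.of_apply, Pi.zero_apply] at h1
    rw [Finset.mul_sum, ← Finset.sum_sub_distrib]
    have h2 : ∑ j, (z * ((E i j : ℂ) * ((starRingEnd ℂ) (v i) * v j))
        - (X i j : ℂ) * ((starRingEnd ℂ) (v i) * v j))
        = (starRingEnd ℂ) (v i) * ∑ j, (z * (E i j : ℂ) - (X i j : ℂ)) * v j := by
      rw [Finset.mul_sum]
      refine Finset.sum_congr rfl fun j _ => ?_
      ring
    rw [h2, h1, mul_zero]
  rw [qf_complex (hsym e), qf_complex (hsym x)] at hsum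
  refine ⟨_, _, ?_, hsum, fun hXp => add_nonneg (qf_nonneg hXp _) (qf_nonneg hXp _)⟩
  by_cases hre : (fun i => (v i).re) = 0
  · have him : (fun i => (v i).im) ≠ 0 := by
      intro h0
      apply hv0
      funext i
      exact Complex.ext (congrFun hre i) (congrFun h0 i)
    exact add_pos_of_nonneg_of_pos (qf_nonneg he.posSemidef _) (qf_pos he him)
  · exact add_pos_of_pos_of_nonneg (qf_pos he hre) (qf_nonneg he.posSemidef _)

theorem detPoly_hyperbolic {A : Fin m → Matrix (Fin N) (Fin N) ℝ} (hA : ∀ i, (A i).IsSymm)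
    {e : Fin m → ℝ} (he : (∑ i, e i • A i).PosDef) : IsHyperbolic (detPoly A) e := by
  refine ⟨⟨N, detPoly_homogeneous A⟩, ?_, fun x z hz => ?_⟩
  · rw [eval_detPoly]
    exact he.det_pos
  · obtain ⟨p, r, hp, hr, -⟩ := detPoly_root hA he x z hz
    have h1 := congrArg Complex.im hr
    rw [Complex.im_mul_ofReal, Complex.ofReal_im] at h1
    rcases mul_eq_zero.mp h1 with h2 | h2
    · exact h2
    · exact absurd h2 hp.ne'

theorem mem_cone_detPoly {A : Fin m → Matrix (Fin N) (Fin N) ℝ} (hA : ∀ i, (A i).IsSymm)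
    {e : Fin m → ℝ} (he : (∑ i, e i • A i).PosDef) (x : Fin m → ℝ) :
    x ∈ hyperbolicityCone (detPoly A) e ↔ (∑ i, x i • A i).PosSemidef := by
  constructor
  · intro hx
    set E := ∑ i, e i • A i with hE
    set X := ∑ i, x i • A i with hX
    have hXs : X.IsSymm := by
      rw [hX]
      unfold Matrix.IsSymm
      rw [transpose_sum]
      refine Finset.sum_congr rfl fun i _ => ?_
      rw [transpose_smul, hA i]
    obtain ⟨B, hB⟩ : ∃ B : Matrix (Fin N) (Fin N) ℝ, E = Bᴴ * B := by
      open scoped MatrixOrder in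
      obtain ⟨B, hB⟩ := CStarAlgebra.nonneg_iff_eq_star_mul_self.mp he.posSemidef.nonneg
      exact ⟨B, hB⟩
    have hBdet : B.det ≠ 0 := by
      intro h0
      have h1 := he.det_pos
      rw [hB, det_mul, h0, mul_zero] at h1
      exact lt_irrefl _ h1
    have hBu : IsUnit B.det := isUnit_iff_ne_zero.mpr hBdet
    set M := (B⁻¹)ᴴ * X * B⁻¹ with hM
    have hMh : M.IsHermitian := by
      have h1 : X.IsHermitian := (isHermitian_iff_isSymm X).mpr hXs
      rw [hM]
      exact isHermitian_conjTranspose_mul_mul B⁻¹ h1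
    have hXM : X = Bᴴ * M * B := by
      have h1 : B⁻¹ * B = 1 := nonsing_inv_mul B hBu
      have h2 : Bᴴ * (B⁻¹)ᴴ = 1 := by
        rw [← conjTranspose_mul, h1, conjTranspose_one]
      rw [hM]
      calc X = (Bᴴ * (B⁻¹)ᴴ) * X * (B⁻¹ * B) := by rw [h1, h2, Matrix.one_mul, Matrix.mul_one]
        _ = Bᴴ * ((B⁻¹)ᴴ * X * B⁻¹) * B := by simp only [Matrix.mul_assoc]
    have hMp : M.PosSemidef := by
      rw [hMh.posSemidef_iff_eigenvalues_nonneg]
      intro j
      refine hx _ ?_
      rw [eval_detPoly]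
      have h1 : ∑ i, (hMh.eigenvalues j * e i - x i) • A i = hMh.eigenvalues j • E - X := by
        rw [hE, hX, Finset.smul_sum, ← Finset.sum_sub_distrib]
        refine Finset.sum_congr rfl fun i _ => ?_
        rw [sub_smul, mul_smul]
      have h2 : hMh.eigenvalues j • E - X = Bᴴ * (hMh.eigenvalues j • (1 : Matrix _ _ ℝ) - M) * B := by
        rw [Matrix.mul_sub, Matrix.sub_mul, ← hXM, Matrix.mul_smul, Matrix.smul_mul,
          Matrix.mul_one, ← hB]
      have h3 : (hMh.eigenvalues j • (1 : Matrix (Fin N) (Fin N) ℝ) - M).det = 0 := by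
        rw [← Matrix.exists_mulVec_eq_zero_iff]
        refine ⟨⇑(hMh.eigenvectorBasis j), ?_, ?_⟩
        · intro h0
          have h4 := hMh.eigenvectorBasis.orthonormal.ne_zero j
          apply h4
          ext i
          exact congrFun h0 i
        · rw [sub_mulVec, smul_mulVec, one_mulVec, hMh.mulVec_eigenvectorBasis j, sub_self]
      rw [h1, h2, det_mul, det_mul, h3, mul_zero, zero_mul]
    rw [hXM]
    exact hMp.conjTranspose_mul_mul_same B
  · intro hX t ht
    have h1 : MvPolynomial.aeval (fun i => (t : ℂ) * (e i : ℂ) - (x i : ℂ)) (detPoly A) = 0 := by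
      have e1 : (fun i => (t : ℂ) * (e i : ℂ) - (x i : ℂ)) = fun i => ((t * e i - x i : ℝ) : ℂ) := by
        funext i
        push_cast
        ring
      rw [e1, aeval_ofReal, ht, Complex.ofReal_zero]
    obtain ⟨p, r, hp, hr, hnn⟩ := detPoly_root hA he x t h1
    have h2 := hnn hX
    have h3 : t * p = r := by exact_mod_cast hr
    by_contra hc
    push Not at hc
    nlinarith

theorem detPoly_shadow {A : Fin m → Matrix (Fin N) (Fin N) ℝ} (hA : ∀ i, (A i).IsSymm)
    {e : Fin m → ℝ} (he : (∑ i, e i • A i).PosDef) :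
    IsSpectrahedralShadow (hyperbolicityCone (detPoly A) e) := by
  refine Shd.isShadow ?_
  let G : (Fin m → ℝ) →ₗ[ℝ] Matrix (Fin N) (Fin N) ℝ :=
    { toFun := fun x => ∑ i, x i • A i
      map_add' := fun x y => by
        simp only [Pi.add_apply, add_smul, Finset.sum_add_distrib]
      map_smul' := fun r x => by
        simp only [Pi.smul_apply, smul_eq_mul, mul_smul, RingHom.id_apply, Finset.smul_sum] }
  refine (Shd.of_linear G (fun x => ?_)).congr fun x => mem_cone_detPoly hA he x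
  change (∑ i, x i • A i).IsSymm
  unfold Matrix.IsSymm
  rw [transpose_sum]
  refine Finset.sum_congr rfl fun i _ => ?_
  rw [transpose_smul, hA i]

end Vale.Agent.P256L
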