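import Vale.Agent.P256L.Rule

/-!
# P256: a Gårding type lemma: `P(z e + w f - l) ≠ 0` for `Im z > 0`, `Im w ≥ 0`, `f` in the cone
-/

namespace Vale.Agent.P256L

open Matrix Filter Topology

variable {m n : ℕ} {P : MvPolynomial (Fin m) ℝ} {e : Fin m → ℝ}

/-- `P (z e + w f - s l)` -/
noncomputable def gF (P : MvPolynomial (Fin m) ℝ) (e f l : Fin m → ℝ) (z w s : ℂ) : ℂ :=
  MvPolynomial.aeval (fun i => z * (e i : ℂ) + w * (f i : ℂ) - s * (l i : ℂ)) P

theorem aeval_continuous {X : Type} [TopologicalSpace X] (P : MvPolynomial (Fin m) ℝ)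
    {v : X → Fin m → ℂ} (hv : ∀ i, Continuous fun x => v x i) :
    Continuous fun x => MvPolynomial.aeval (v x) P := by
  have h1 : ∀ x, MvPolynomial.aeval (v x) P
      = MvPolynomial.eval (v x) (MvPolynomial.map (algebraMap ℝ ℂ) P) := by
    intro x
    rw [MvPolynomial.eval_map, MvPolynomial.aeval_def]
  simp only [h1]
  exact (MvPolynomial.continuous_eval _).comp (continuous_pi hv)

theorem gF_nonreal (h : IsHyperbolic P e) (f l : Fin m → ℝ) {z : ℂ} (hz : 0 < z.im) (w s : ℝ) :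
    gF P e f l z w s ≠ 0 := by
  intro h0
  have h1 := h.real_rooted (fun i => s * l i - w * f i) z (by
    rw [← h0]
    unfold gF
    congr 2
    funext i
    push_cast
    ring)
  exact hz.ne' h1

theorem gF_zero (h : IsHyperbolic P e) {d : ℕ} (hd : P.IsHomogeneous d) {f : Fin m → ℝ}
    (hf : f ∈ hyperbolicityCone P e) (l : Fin m → ℝ) {z w : ℂ} (hz : 0 < z.im) (hw : 0 ≤ w.im) :
    gF P e f l z w 0 ≠ 0 := by
  intro h0
  by_cases hw0 : w = 0
  · refine gF_nonreal h f l hz 0 0 ?_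
    rw [← h0, hw0]
    norm_num
  · set t : ℂ := -(z / w) with ht
    have hzt : z = -(t * w) := by
      rw [ht]
      field_simp
    have e1 : gF P e f l z w 0 = (-w) ^ d * MvPolynomial.aeval
        (fun i => t * (e i : ℂ) - (f i : ℂ)) P := by
      rw [← aeval_scale hd]
      unfold gF
      congr 2
      funext i
      rw [hzt]
      ring
    rw [e1] at h0
    rcases mul_eq_zero.mp h0 with h1 | h1
    · have := eq_zero_of_pow_eq_zero h1
      exact hw0 (neg_eq_zero.mp this)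
    · have him := h.real_rooted f t h1
      have htr : t = ((t.re : ℝ) : ℂ) := Complex.ext rfl (by rw [him, Complex.ofReal_im])
      have hev : MvPolynomial.eval (fun i => t.re * e i - f i) P = 0 := by
        rw [htr] at h1
        have e2 : (fun i => ((t.re : ℝ) : ℂ) * (e i : ℂ) - ((f i : ℝ) : ℂ))
            = fun i => ((t.re * e i - f i : ℝ) : ℂ) := by
          funext i
          push_cast
          ring
        rw [e2, aeval_ofReal] at h1
        exact_mod_cast h1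
      have hpos := hf _ hev
      have h2 : z.im = -(t.re * w.im) := by
        conv_lhs => rw [hzt, htr]
        simp
      rw [h2] at hz
      nlinarith

/-- persistence of roots -/
theorem root_near {R : Polynomial ℂ} {d : ℕ} (hdeg : R.natDegree ≤ d) (h0 : R.eval 0 ≠ 0)
    {u : ℂ} {δ : ℝ} (hδ0 : 0 < δ) (hδ1 : δ ≤ 1) (hu : ‖R.eval u‖ < ‖R.eval 0‖ * δ ^ d) :
    ∃ r : ℂ, R.eval r = 0 ∧ r ≠ 0 ∧ ‖1 - u / r‖ < δ := by
  classical
  by_contra hno
  push Not at hno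
  have hR : R ≠ 0 := by
    intro h
    rw [h] at h0
    simp at h0
  have hs := IsAlgClosed.splits R
  have h1 := hs.eval_eq_prod_roots u
  have h2 := hs.eval_eq_prod_roots 0
  have hroot : ∀ r ∈ R.roots, R.eval r = 0 ∧ r ≠ 0 := by
    intro r hr
    have h3 : R.eval r = 0 := (Polynomial.mem_roots hR).mp hr
    refine ⟨h3, ?_⟩
    intro h4
    rw [h4] at h3
    exact h0 h3
  have h3 : ∀ s : Multiset ℂ, (∀ r ∈ s, R.eval r = 0 ∧ r ≠ 0) →
      ‖(s.map fun a => (0 : ℂ) - a).prod‖ * δ ^ (Multiset.card s)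
        ≤ ‖(s.map fun a => u - a).prod‖ := by
    intro s
    induction s using Multiset.induction_on with
    | empty => intro _; simp
    | cons a s ih =>
      intro hs
      have h4 := ih fun r hr => hs r (Multiset.mem_cons_of_mem hr)
      obtain ⟨h5, h6⟩ := hs a (Multiset.mem_cons_self a s)
      have h7 := hno a h5 h6
      rw [Multiset.map_cons, Multiset.prod_cons, Multiset.map_cons, Multiset.prod_cons,
        Multiset.card_cons, norm_mul, norm_mul, pow_succ]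
      have h8 : ‖(0 : ℂ) - a‖ * δ ≤ ‖u - a‖ := by
        have e1 : u - a = -(a * (1 - u / a)) := by
          field_simp
          ring
        rw [e1, norm_neg, norm_mul, zero_sub, norm_neg]
        exact mul_le_mul_of_nonneg_left h7 (norm_nonneg _)
      calc ‖(0 : ℂ) - a‖ * ‖(s.map fun a => (0 : ℂ) - a).prod‖ * (δ ^ Multiset.card s * δ)
          = (‖(0 : ℂ) - a‖ * δ) * (‖(s.map fun a => (0 : ℂ) - a).prod‖ * δ ^ Multiset.card s) := by
            ring
        _ ≤ ‖u - a‖ * ‖(s.map fun a => u - a).prod‖ :=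
            mul_le_mul h8 h4 (by positivity) (norm_nonneg _)
  have h4 := h3 R.roots hroot
  have hcard : Multiset.card R.roots ≤ d := (Polynomial.card_roots' R).trans hdeg
  have h5 : δ ^ d ≤ δ ^ (Multiset.card R.roots) := pow_le_pow_of_le_one hδ0.le hδ1 hcard
  rw [h1, h2, norm_mul, norm_mul] at hu
  have h6 : ‖R.leadingCoeff‖ * ‖(R.roots.map fun a => (0 : ℂ) - a).prod‖ * δ ^ d
      ≤ ‖R.leadingCoeff‖ * ‖(R.roots.map fun a => u - a).prod‖ := by
    rw [mul_assoc]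
    refine mul_le_mul_of_nonneg_left (le_trans ?_ h4) (norm_nonneg _)
    exact mul_le_mul_of_nonneg_left h5 (norm_nonneg _)
  linarith

/-- the polynomial `P (f + u (z e - s l))` in `u` -/
noncomputable def gR (P : MvPolynomial (Fin m) ℝ) (e f l : Fin m → ℝ) (z s : ℂ) : Polynomial ℂ :=
  MvPolynomial.aeval (fun i => Polynomial.C (f i : ℂ) + Polynomial.C (z * (e i : ℂ) - s * (l i : ℂ))
    * Polynomial.X) (MvPolynomial.map (algebraMap ℝ ℂ) P)

theorem eval_gR (f l : Fin m → ℝ) (z s u : ℂ) : (gR P e f l z s).eval u =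
    MvPolynomial.aeval (fun i => (f i : ℂ) + (z * (e i : ℂ) - s * (l i : ℂ)) * u) P := by
  unfold gR
  have h1 := MvPolynomial.map_aeval (fun i => Polynomial.C (f i : ℂ)
    + Polynomial.C (z * (e i : ℂ) - s * (l i : ℂ)) * Polynomial.X) (Polynomial.evalRingHom u)
    (MvPolynomial.map (algebraMap ℝ ℂ) P)
  have h2 : (Polynomial.evalRingHom u).comp (algebraMap ℂ (Polynomial ℂ)) = RingHom.id ℂ := by
    ext r
    simp
  rw [h2] at h1
  change (Polynomial.evalRingHom u) _ = _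
  rw [h1, MvPolynomial.coe_eval₂Hom, MvPolynomial.eval₂_map, MvPolynomial.aeval_def,
    RingHom.id_comp]
  congr 1
  funext i
  simp

theorem gR_natDegree {d : ℕ} (hd : P.IsHomogeneous d) (f l : Fin m → ℝ) (z s : ℂ) :
    (gR P e f l z s).natDegree ≤ d := by
  unfold gR
  have h1 : (MvPolynomial.map (algebraMap ℝ ℂ) P).totalDegree ≤ d :=
    (hd.map _).totalDegree_le
  have h2 := MvPolynomial.aeval_natDegree_le _ h1 (fun i => Polynomial.C (f i : ℂ)
    + Polynomial.C (z * (e i : ℂ) - s * (l i : ℂ)) * Polynomial.X) (n := 1) (fun i => by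
      refine (Polynomial.natDegree_add_le _ _).trans ?_
      rw [Polynomial.natDegree_C, max_eq_right (Nat.zero_le _)]
      exact (Polynomial.natDegree_C_mul_le _ _).trans Polynomial.natDegree_X_le)
  rw [mul_one] at h2
  exact h2

/-- relation between the two polynomials -/
theorem gF_eq_gR {d : ℕ} (hd : P.IsHomogeneous d) (f l : Fin m → ℝ) (z s : ℂ) {w : ℂ}
    (hw : w ≠ 0) : gF P e f l z w s = w ^ d * (gR P e f l z s).eval w⁻¹ := by
  rw [eval_gR, ← aeval_scale hd]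
  unfold gF
  congr 2
  funext i
  field_simp
  ring

theorem gR_zero (f l : Fin m → ℝ) (z s : ℂ) :
    (gR P e f l z s).eval 0 = ((MvPolynomial.eval f P : ℝ) : ℂ) := by
  rw [eval_gR, ← aeval_ofReal]
  congr 2
  funext i
  ring

/-- the homotopy argument -/
theorem gF_homotopy (h : IsHyperbolic P e) {d : ℕ} (hd : P.IsHomogeneous d) {f : Fin m → ℝ}
    (hf : f ∈ hyperbolicityCone P e) (hPf : MvPolynomial.eval f P ≠ 0) (l : Fin m → ℝ) {z : ℂ}
    (hz : 0 < z.im) {w : ℂ} (hw : 0 ≤ w.im) : gF P e f l z w 1 ≠ 0 := by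
  intro hbad
  have hcF : Continuous fun p : ℝ × ℂ => gF P e f l z p.2 (p.1 : ℂ) := by
    unfold gF
    refine aeval_continuous P fun i => ?_
    fun_prop
  have hcR : Continuous fun p : ℝ × ℂ => (gR P e f l z (p.1 : ℂ)).eval p.2 := by
    simp only [eval_gR]
    refine aeval_continuous P fun i => ?_
    fun_prop
  have hR0 : ∀ s : ℂ, (gR P e f l z s).eval 0 ≠ 0 := by
    intro s
    rw [gR_zero]
    exact_mod_cast hPf
  -- uniform bound of the roots
  obtain ⟨ε, hε0, hε⟩ : ∃ ε : ℝ, 0 < ε ∧ ∀ τ ∈ Set.Icc (0:ℝ) 1, ∀ u : ℂ, ‖u‖ < ε →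
      (gR P e f l z (τ : ℂ)).eval u ≠ 0 := by
    obtain ⟨U, V, hU, hV, hUs, hVs, hUV⟩ := generalized_tube_lemma
      (isCompact_Icc (a := (0:ℝ)) (b := 1)) (isCompact_singleton (x := (0:ℂ)))
      (n := {p : ℝ × ℂ | (gR P e f l z (p.1 : ℂ)).eval p.2 ≠ 0})
      (isOpen_ne_fun hcR continuous_const) (by
        rintro ⟨τ, u⟩ ⟨hτ, hu⟩
        have hu0 : u = 0 := hu
        change (gR P e f l z (τ : ℂ)).eval u ≠ 0
        rw [hu0]
        exact hR0 _)
    obtain ⟨ε, hε0, hε⟩ := Metric.isOpen_iff.mp hV 0 (hVs rfl)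
    refine ⟨ε, hε0, fun τ hτ u hu => ?_⟩
    have h1 : ((τ, u) : ℝ × ℂ) ∈ U ×ˢ V := ⟨hUs hτ, hε (by rw [Metric.mem_ball, dist_zero_right]; exact hu)⟩
    exact hUV h1
  have hbound : ∀ τ ∈ Set.Icc (0:ℝ) 1, ∀ w : ℂ, gF P e f l z w (τ : ℂ) = 0 → ‖w‖ ≤ ε⁻¹ := by
    intro τ hτ w hw0
    by_contra hlt
    push Not at hlt
    have hwpos : 0 < ‖w‖ := lt_trans (inv_pos.mpr hε0) hlt
    have hwne : w ≠ 0 := norm_pos_iff.mp hwpos
    rw [gF_eq_gR hd f l z _ hwne] at hw0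
    rcases mul_eq_zero.mp hw0 with h1 | h1
    · exact hwne (eq_zero_of_pow_eq_zero h1)
    · refine hε τ hτ w⁻¹ ?_ h1
      rw [norm_inv]
      exact inv_lt_of_inv_lt₀ hε0 hlt
  set A : Set ℝ := {τ | τ ∈ Set.Icc (0:ℝ) 1 ∧ ∃ w : ℂ, 0 ≤ w.im ∧ gF P e f l z w (τ : ℂ) = 0}
    with hA
  have hAc : IsCompact A := by
    have h1 : IsCompact ((Set.Icc (0:ℝ) 1 ×ˢ Metric.closedBall (0:ℂ) ε⁻¹) ∩
        {p : ℝ × ℂ | 0 ≤ p.2.im ∧ gF P e f l z p.2 (p.1 : ℂ) = 0}) := by
      refine (isCompact_Icc.prod (isCompact_closedBall _ _)).inter_right ?_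
      refine IsClosed.inter ?_ ?_
      · exact isClosed_le continuous_const (Complex.continuous_im.comp continuous_snd)
      · exact isClosed_eq hcF continuous_const
    have h2 := h1.image continuous_fst
    have h3 : A = Prod.fst '' ((Set.Icc (0:ℝ) 1 ×ˢ Metric.closedBall (0:ℂ) ε⁻¹) ∩
        {p : ℝ × ℂ | 0 ≤ p.2.im ∧ gF P e f l z p.2 (p.1 : ℂ) = 0}) := by
      ext τ
      constructor
      · rintro ⟨h4, w, h5, h6⟩
        refine ⟨(τ, w), ⟨⟨h4, ?_⟩, h5, h6⟩, rfl⟩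
        rw [Metric.mem_closedBall, dist_zero_right]
        exact hbound τ h4 w h6
      · rintro ⟨⟨τ', w⟩, ⟨⟨h4, _⟩, h5, h6⟩, rfl⟩
        exact ⟨h4, w, h5, h6⟩
    rw [h3]
    exact h2
  have hA1 : (1:ℝ) ∈ A := ⟨⟨zero_le_one, le_rfl⟩, w, hw, by rw [Complex.ofReal_one]; exact hbad⟩
  obtain ⟨hτ, w₀, hw₀, hw₀F⟩ := hAc.sInf_mem ⟨1, hA1⟩
  set τ := sInf A with hτd
  have hτ0 : 0 < τ := by
    rcases hτ.1.eq_or_lt with h0 | h0
    · exfalso
      refine gF_zero h hd hf l hz hw₀ ?_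
      have h2 := hw₀F
      rw [← h0, Complex.ofReal_zero] at h2
      exact h2
    · exact h0
  have him : 0 < w₀.im := by
    rcases hw₀.eq_or_lt with h0 | h0
    · exfalso
      refine gF_nonreal h f l hz w₀.re τ ?_
      rw [← hw₀F]
      congr 1
      exact Complex.ext rfl (by rw [Complex.ofReal_im, h0])
    · exact h0
  have hw₀ne : w₀ ≠ 0 := by
    intro h0
    rw [h0] at him
    simp at him
  have hwn : 0 < ‖w₀‖ := norm_pos_iff.mpr hw₀ne
  obtain ⟨δ, hδ0, hδ1, hδ⟩ : ∃ δ : ℝ, 0 < δ ∧ δ ≤ 1 ∧ δ * ‖w₀‖ < w₀.im := by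
    refine ⟨min 1 (w₀.im / (2 * ‖w₀‖)), by positivity, min_le_left _ _, ?_⟩
    calc min 1 (w₀.im / (2 * ‖w₀‖)) * ‖w₀‖ ≤ w₀.im / (2 * ‖w₀‖) * ‖w₀‖ :=
          mul_le_mul_of_nonneg_right (min_le_right _ _) hwn.le
      _ = w₀.im / 2 := by field_simp
      _ < w₀.im := by linarith
  have hRw : (gR P e f l z (τ : ℂ)).eval w₀⁻¹ = 0 := by
    rw [gF_eq_gR hd f l z _ hw₀ne] at hw₀F
    rcases mul_eq_zero.mp hw₀F with h1 | h1
    · exact absurd (eq_zero_of_pow_eq_zero h1) hw₀ne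
    · exact h1
  have hc1 : Continuous fun σ : ℝ => ‖(gR P e f l z (σ : ℂ)).eval w₀⁻¹‖ :=
    (hcR.comp (continuous_id.prodMk continuous_const)).norm
  have hPn : 0 < ‖((MvPolynomial.eval f P : ℝ) : ℂ)‖ * δ ^ d := by
    have : 0 < ‖((MvPolynomial.eval f P : ℝ) : ℂ)‖ := norm_pos_iff.mpr (by exact_mod_cast hPf)
    positivity
  have hev : ∀ᶠ σ : ℝ in 𝓝 τ, ‖(gR P e f l z (σ : ℂ)).eval w₀⁻¹‖ <
      ‖((MvPolynomial.eval f P : ℝ) : ℂ)‖ * δ ^ d := by
    have h0 : ‖(gR P e f l z (τ : ℂ)).eval w₀⁻¹‖ = 0 := by rw [hRw, norm_zero]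
    have h1 := hc1.tendsto τ
    rw [h0] at h1
    exact h1.eventually (Iio_mem_nhds hPn)
  obtain ⟨σ, hσ1, hσ0, hστ⟩ : ∃ σ : ℝ, ‖(gR P e f l z (σ : ℂ)).eval w₀⁻¹‖ <
      ‖((MvPolynomial.eval f P : ℝ) : ℂ)‖ * δ ^ d ∧ 0 ≤ σ ∧ σ < τ := by
    obtain ⟨r, hr0, hr⟩ := Metric.eventually_nhds_iff.mp hev
    refine ⟨max (τ - r / 2) (τ / 2), hr ?_, ?_, ?_⟩
    · rw [Real.dist_eq, abs_lt]
      constructor
      · have := le_max_left (τ - r / 2) (τ / 2)
        linarith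
      · have : max (τ - r / 2) (τ / 2) ≤ τ := max_le (by linarith) (by linarith)
        linarith
    · exact le_trans (by linarith) (le_max_right _ _)
    · exact max_lt (by linarith) (by linarith)
  obtain ⟨r, hr1, hr2, hr3⟩ := root_near (u := w₀⁻¹) (gR_natDegree hd f l z (σ : ℂ)) (hR0 _)
    hδ0 hδ1 (by
      rw [gR_zero]
      exact hσ1)
  have hσA : σ ∈ A := by
    refine ⟨⟨hσ0, (hστ.le.trans hτ.2)⟩, r⁻¹, ?_, ?_⟩
    · have h1 : r⁻¹ = w₀ - w₀ * (1 - w₀⁻¹ / r) := by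
        field_simp
        ring
      rw [h1, Complex.sub_im]
      have h2 : (w₀ * (1 - w₀⁻¹ / r)).im ≤ ‖w₀ * (1 - w₀⁻¹ / r)‖ :=
        (le_abs_self _).trans (Complex.abs_im_le_norm _)
      rw [norm_mul] at h2
      have h3 : ‖w₀‖ * ‖1 - w₀⁻¹ / r‖ ≤ ‖w₀‖ * δ := mul_le_mul_of_nonneg_left hr3.le hwn.le
      linarith [mul_comm δ ‖w₀‖]
    · rw [gF_eq_gR hd f l z _ (inv_ne_zero hr2), inv_inv, hr1, mul_zero]
  have := csInf_le hAc.bddBelow hσA
  linarith

/-- THE GÅRDING TYPE LEMMA -/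
theorem gF_ne_zero (h : IsHyperbolic P e) {f : Fin m → ℝ}
    (hf : f ∈ hyperbolicityCone P e) (l : Fin m → ℝ) {z : ℂ}
    (hz : 0 < z.im) {w : ℂ} (hw : 0 ≤ w.im) : gF P e f l z w 1 ≠ 0 := by
  obtain ⟨d, hd⟩ := h.homogeneous
  obtain ⟨ε, hε0, hε⟩ : ∃ ε : ℝ, 0 < ε ∧ ε * w.im < z.im := by
    rcases hw.eq_or_lt with h0 | h0
    · exact ⟨1, one_pos, by rw [← h0, mul_zero]; exact hz⟩
    · refine ⟨z.im / (2 * w.im), by positivity, ?_⟩
      have : z.im / (2 * w.im) * w.im = z.im / 2 := by field_simp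
      rw [this]
      linarith
  have hf' : (fun i => f i + ε * e i) ∈ hyperbolicityCone P e := by
    intro t ht
    have h1 := hf (t - ε) (by
      rw [← ht]
      congr 2
      funext i
      ring)
    linarith
  have hPf : MvPolynomial.eval (fun i => f i + ε * e i) P ≠ 0 := by
    intro h0
    have h1 := hf (-ε) (by
      have e1 : (fun i => -ε * e i - f i) = fun i => (-1) * (f i + ε * e i) := by
        funext i
        ring
      rw [e1, eval_scale hd, h0, mul_zero])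
    linarith
  have h1 := gF_homotopy h hd hf' hPf l (z := z - (ε : ℂ) * w) (by
    rw [Complex.sub_im, Complex.im_ofReal_mul]
    linarith) hw
  intro h2
  apply h1
  rw [← h2]
  unfold gF
  congr 2
  funext i
  push_cast
  ring

end Vale.Agent.P256L
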