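import Vale.Agent.P256L.Core

/-!
# P256: hyperbolicity cones, the closure rule
-/

namespace Vale.Agent.P256L

open Matrix

variable {m n : ℕ}

theorem aeval_scale {A : Type} [CommRing A] [Algebra ℝ A] {P : MvPolynomial (Fin m) ℝ} {d : ℕ}
    (hP : P.IsHomogeneous d) (r : A) (v : Fin m → A) :
    MvPolynomial.aeval (fun i => r * v i) P = r ^ d * MvPolynomial.aeval v P := by
  rw [MvPolynomial.aeval_def, MvPolynomial.aeval_def, MvPolynomial.eval₂_eq',
    MvPolynomial.eval₂_eq', Finset.mul_sum]
  refine Finset.sum_congr rfl fun s hs => ?_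
  have h1 : ∑ i, s i = d := by
    have h2 := hP (MvPolynomial.mem_support_iff.mp hs)
    rw [← h2, Finsupp.weight_apply, Finsupp.sum_fintype]
    · simp
    · intro i
      simp
  rw [← h1, ← Finset.prod_pow_eq_pow_sum]
  simp only [mul_pow, Finset.prod_mul_distrib]
  ring

theorem aeval_real (v : Fin m → ℝ) (P : MvPolynomial (Fin m) ℝ) :
    MvPolynomial.aeval v P = MvPolynomial.eval v P := by
  rw [← MvPolynomial.coe_aeval_eq_eval]
  rfl

theorem eval_scale {P : MvPolynomial (Fin m) ℝ} {d : ℕ} (hP : P.IsHomogeneous d) (r : ℝ)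
    (v : Fin m → ℝ) :
    MvPolynomial.eval (fun i => r * v i) P = r ^ d * MvPolynomial.eval v P := by
  have h := aeval_scale hP r v
  rw [aeval_real, aeval_real] at h
  exact h

theorem aeval_ofReal (P : MvPolynomial (Fin m) ℝ) (v : Fin m → ℝ) :
    MvPolynomial.aeval (fun i => (v i : ℂ)) P = ((MvPolynomial.eval v P : ℝ) : ℂ) := by
  have h := MvPolynomial.aeval_algebraMap_apply (A := ℝ) ℂ v P
  rw [aeval_real] at h
  exact h

section cone

variable {P : MvPolynomial (Fin m) ℝ} {e : Fin m → ℝ}

theorem mem_cone {x : Fin m → ℝ} : x ∈ hyperbolicityCone P e ↔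
    ∀ t : ℝ, MvPolynomial.eval (fun i => t * e i - x i) P = 0 → 0 ≤ t := Iff.rfl

theorem cone_smul (h : IsHyperbolic P e) {x : Fin m → ℝ} {r : ℝ} (hr : 0 < r)
    (hx : x ∈ hyperbolicityCone P e) : r • x ∈ hyperbolicityCone P e := by
  obtain ⟨d, hd⟩ := h.homogeneous
  intro t ht
  have e1 : (fun i => t * e i - (r • x) i) = fun i => r * ((t / r) * e i - x i) := by
    funext i
    rw [Pi.smul_apply, smul_eq_mul]
    field_simp
  rw [e1, eval_scale hd] at ht
  rcases mul_eq_zero.mp ht with h0 | h0
  · exact absurd h0 (pow_ne_zero d hr.ne')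
  · have h1 := hx _ h0
    have h2 : t = t / r * r := by field_simp
    rw [h2]
    positivity

theorem coneData (h : IsHyperbolic P e) (hs : Shd (hyperbolicityCone P e)) :
    ConeData (hyperbolicityCone P e) e := by
  obtain ⟨d, hd⟩ := h.homogeneous
  refine ⟨?_, fun hr hx => cone_smul h hr hx, ?_, ?_, ?_⟩
  · intro t ht
    have e1 : (fun i => t * e i - (0 : Fin m → ℝ) i) = fun i => t * e i := by
      funext i
      rw [Pi.zero_apply, sub_zero]
    rw [e1, eval_scale hd] at ht
    rcases mul_eq_zero.mp ht with h0 | h0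
    · rw [eq_zero_of_pow_eq_zero h0]
    · exact absurd h0 h.pos.ne'
  · intro x y hx hy
    have h1 := hs.convex hx hy (a := 1 / 2) (b := 1 / 2) (by norm_num) (by norm_num) (by norm_num)
    have h2 := cone_smul h (r := 2) (by norm_num) h1
    have e1 : (2 : ℝ) • ((1 / 2 : ℝ) • x + (1 / 2 : ℝ) • y) = x + y := by
      rw [smul_add, smul_smul, smul_smul]
      norm_num
    rw [e1] at h2
    exact h2
  · intro x hx t ht
    by_contra hneg
    push Not at hneg
    have h1 := hx (-t / 2) (by linarith) (t + -t / 2) (by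
      have e1 : (fun i => (t + -t / 2) * e i - (x + (-t / 2) • e) i) = fun i => t * e i - x i := by
        funext i
        rw [Pi.add_apply, Pi.smul_apply, smul_eq_mul]
        ring
      rw [e1]
      exact ht)
    linarith
  · intro t ht
    have e1 : (fun i => t * e i - e i) = fun i => (t - 1) * e i := by
      funext i
      ring
    rw [e1, eval_scale hd] at ht
    rcases mul_eq_zero.mp ht with h0 | h0
    · have := eq_zero_of_pow_eq_zero h0
      linarith
    · exact absurd h0 h.pos.ne'

/-- existence of a real root -/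
theorem exists_real_root {d : ℕ} (h : IsHyperbolic P e) (hd : P.IsHomogeneous d) (hd0 : d ≠ 0)
    (x : Fin m → ℝ) : ∃ t : ℝ, MvPolynomial.eval (fun i => t * e i - x i) P = 0 := by
  let f : Polynomial ℂ := MvPolynomial.aeval (fun i => Polynomial.C (e i : ℂ) * Polynomial.X
    - Polynomial.C (x i : ℂ)) P
  let g : Polynomial ℂ := MvPolynomial.aeval (fun i => Polynomial.C (e i : ℂ)
    - Polynomial.C (x i : ℂ) * Polynomial.X) P
  have hev : ∀ (z : ℂ) (v : Fin m → Polynomial ℂ), Polynomial.eval z (MvPolynomial.aeval v P)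
      = MvPolynomial.aeval (fun i => Polynomial.eval z (v i)) P := by
    intro z v
    have h1 := MvPolynomial.map_aeval v (Polynomial.evalRingHom z) P
    have h2 : (Polynomial.evalRingHom z).comp (algebraMap ℝ (Polynomial ℂ)) = algebraMap ℝ ℂ := by
      ext r
      simp [Polynomial.algebraMap_apply]
    rw [h2] at h1
    exact h1
  have hf : ∀ z : ℂ, f.eval z = MvPolynomial.aeval (fun i => z * (e i : ℂ) - (x i : ℂ)) P := by
    intro z
    rw [hev]
    congr 2
    funext i
    simp only [Polynomial.eval_sub, Polynomial.eval_mul, Polynomial.eval_C, Polynomial.eval_X]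
    ring
  have hg : ∀ z : ℂ, g.eval z = MvPolynomial.aeval (fun i => (e i : ℂ) - (x i : ℂ) * z) P := by
    intro z
    rw [hev]
    congr 2
    funext i
    simp only [Polynomial.eval_sub, Polynomial.eval_mul, Polynomial.eval_C, Polynomial.eval_X]
  have hfg : ∀ z : ℂ, z ≠ 0 → f.eval z = z ^ d * g.eval z⁻¹ := by
    intro z hz
    rw [hf, hg, ← aeval_scale hd]
    congr 2
    funext i
    field_simp
  obtain ⟨z, hz⟩ : ∃ z : ℂ, f.eval z = 0 := by
    by_contra hno
    push Not at hno
    have hg0 : ∀ z : ℂ, g.eval z ≠ 0 := by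
      intro z
      by_cases hz : z = 0
      · rw [hz, hg]
        have e1 : (fun i => (e i : ℂ) - (x i : ℂ) * 0) = fun i => (e i : ℂ) := by
          funext i
          ring
        rw [e1, aeval_ofReal]
        exact_mod_cast h.pos.ne'
      · intro h0
        have h1 := hfg z⁻¹ (inv_ne_zero hz)
        rw [inv_inv, h0, mul_zero] at h1
        exact hno _ h1
    have hdeg : g.degree ≤ 0 := by
      by_contra hc
      push Not at hc
      obtain ⟨z, hz⟩ := Complex.exists_root hc
      exact hg0 z hz
    obtain ⟨c, hc⟩ : ∃ c, g = Polynomial.C c := ⟨_, Polynomial.eq_C_of_degree_le_zero hdeg⟩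
    have hfe : f = Polynomial.C c * Polynomial.X ^ d := by
      refine Polynomial.eq_of_infinite_eval_eq _ _ ?_
      refine Set.Infinite.mono (s := {0}ᶜ) ?_ (Set.finite_singleton (0 : ℂ)).infinite_compl
      intro z hz
      have hz' : z ≠ 0 := hz
      rw [Set.mem_ofPred_eq, hfg z hz', hc]
      simp only [Polynomial.eval_mul, Polynomial.eval_C, Polynomial.eval_X, Polynomial.eval_pow]
      ring
    refine hno 0 ?_
    rw [hfe]
    simp [hd0]
  rw [hf] at hz
  have him := h.real_rooted x z hz
  refine ⟨z.re, ?_⟩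
  have hzre : z = (z.re : ℂ) := by
    refine Complex.ext rfl ?_
    rw [him, Complex.ofReal_im]
  rw [hzre] at hz
  have e1 : (fun i => ((z.re : ℝ) : ℂ) * (e i : ℂ) - (x i : ℂ))
      = fun i => ((z.re * e i - x i : ℝ) : ℂ) := by
    funext i
    push_cast
    ring
  rw [e1, aeval_ofReal] at hz
  exact_mod_cast hz

end cone

section lift

theorem eval_quadForm (M : Matrix (Fin n) (Fin n) ℝ) (x : Fin n → ℝ) :
    MvPolynomial.eval x (quadForm M) = ∑ a, ∑ b, M a b * (x a * x b) := by
  unfold quadForm
  simp only [map_sum, map_mul, MvPolynomial.eval_C, MvPolynomial.eval_X]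

theorem qval_eq (S : Fin m → Matrix (Fin n) (Fin n) ℝ) (x : Fin n → ℝ) :
    (fun i => MvPolynomial.eval x (quadForm (S i))) = qval S x := by
  funext i
  exact eval_quadForm _ _

theorem quadForm_homogeneous (M : Matrix (Fin n) (Fin n) ℝ) :
    (quadForm M).IsHomogeneous 2 := by
  unfold quadForm
  refine MvPolynomial.IsHomogeneous.sum _ _ _ fun a _ =>
    MvPolynomial.IsHomogeneous.sum _ _ _ fun b _ => ?_
  exact ((MvPolynomial.isHomogeneous_X _ a).mul (MvPolynomial.isHomogeneous_X _ b)).C_mul _

theorem aeval_quadLift {A : Type} [CommRing A] [Algebra ℝ A] (P : MvPolynomial (Fin m) ℝ)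
    (e : Fin m → ℝ) (S : Fin m → Matrix (Fin n) (Fin n) ℝ) (v : Fin (n + 1) → A) :
    MvPolynomial.aeval v (quadLift P e S) = MvPolynomial.aeval (fun i =>
      algebraMap ℝ A (e i) * (v 0) ^ 2
        - ∑ a, ∑ b, algebraMap ℝ A (S i a b) * (v (Fin.succ a) * v (Fin.succ b))) P := by
  unfold quadLift
  rw [← AlgHom.comp_apply, MvPolynomial.comp_aeval]
  congr 2
  funext i
  unfold quadForm
  simp only [map_sub, map_mul, map_pow, map_sum, MvPolynomial.rename_C, MvPolynomial.rename_X,
    MvPolynomial.aeval_X, MvPolynomial.aeval_C]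

theorem eval_quadLift (P : MvPolynomial (Fin m) ℝ)
    (e : Fin m → ℝ) (S : Fin m → Matrix (Fin n) (Fin n) ℝ) (v : Fin (n + 1) → ℝ) :
    MvPolynomial.eval v (quadLift P e S) = MvPolynomial.eval (fun i =>
      (v 0) ^ 2 * e i - qval S (fun j => v j.succ) i) P := by
  have h := aeval_quadLift P e S v
  rw [aeval_real, aeval_real] at h
  rw [h]
  congr 2
  funext i
  simp only [Algebra.algebraMap_self, RingHom.id_apply, qval]
  ring

end lift

end Vale.Agent.P256L
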