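import Vale.Agent.P256L.Core

/-!
# P256: the lifting argument with a linear term
-/

namespace Vale.Agent.P256L

open Matrix

variable {m n : ℕ}

/-- THE LIFT, with a linear term. -/
theorem core_lift_lin {K : Set (Fin m → ℝ)} {e : Fin m → ℝ} (h : ConeData K e) (hK : Shd K)
    (hu : ∀ y : Fin m → ℝ, ∃ c : ℝ, 0 < c ∧ c • e + y ∈ K)
    (L : (Fin n → ℝ) →ₗ[ℝ] (Fin m → ℝ))
    {S : Fin m → Matrix (Fin n) (Fin n) ℝ} (hq : ∀ x, qval S x ∈ K) :
    Shd {v : Fin (n + 1) → ℝ | (0 < v 0 ∧ (v 0) ^ 2 • e - (v 0) • L (fun j => v j.succ)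
        - qval S (fun j => v j.succ) ∈ K) ∨
      (v 0 = 0 ∧ -L (fun j => v j.succ) ∈ K ∧ -qval S (fun j => v j.succ) ∈ K)} := by
  let N := nullSpace h hq
  let W : Type := Matrix (Fin n) (Fin n) ℝ × N
  -- the block matrix as a linear map
  let G : ((Fin (n + 1) → ℝ) × (Matrix (Fin n) (Fin n) ℝ × N)) →ₗ[ℝ]
      Matrix (Unit ⊕ Fin n) (Unit ⊕ Fin n) ℝ :=
    { toFun := fun z => blk (z.1 0) (fun j => z.1 j.succ - (z.2.2 : Fin n → ℝ) j)
        (z.2.1 + z.2.1ᵀ)
      map_add' := fun z w => by
        unfold blk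
        rw [fromBlocks_add]
        congr 1
        · ext i j
          simp only [Matrix.of_apply, Matrix.add_apply, Prod.fst_add, Prod.snd_add, Pi.add_apply,
            Submodule.coe_add]
          ring
        · ext i j
          simp only [Matrix.of_apply, Matrix.add_apply, Prod.fst_add, Prod.snd_add, Pi.add_apply,
            Submodule.coe_add]
          ring
        · ext i j
          simp only [Matrix.add_apply, Prod.fst_add, Prod.snd_add, transpose_apply]
          ring
      map_smul' := fun r z => by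
        unfold blk
        rw [RingHom.id_apply, fromBlocks_smul]
        congr 1
        · ext i j
          simp only [Matrix.of_apply, Matrix.smul_apply, Prod.smul_fst, Prod.smul_snd,
            Pi.smul_apply, Submodule.coe_smul, smul_eq_mul]
          ring
        · ext i j
          simp only [Matrix.of_apply, Matrix.smul_apply, Prod.smul_fst, Prod.smul_snd,
            Pi.smul_apply, Submodule.coe_smul, smul_eq_mul]
          ring
        · ext i j
          simp only [Matrix.add_apply, Matrix.smul_apply, Prod.smul_fst, Prod.smul_snd,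
            transpose_apply, smul_eq_mul]
          ring }
  have hG : ∀ z, (G z).IsSymm := by
    intro z
    change (blk (z.1 0) (fun j => z.1 j.succ - (z.2.2 : Fin n → ℝ) j)
        (z.2.1 + z.2.1ᵀ)).IsSymm
    unfold Matrix.IsSymm blk
    rw [fromBlocks_transpose, transpose_add, transpose_transpose, add_comm z.2.1ᵀ z.2.1]
    rfl
  let T : ((Fin (n + 1) → ℝ) × (Matrix (Fin n) (Fin n) ℝ × N)) →ₗ[ℝ] (Fin m → ℝ) :=
    { toFun := fun z => (z.1 0) • e - L (fun j => z.1 j.succ) - qlin S (z.2.1 + z.2.1ᵀ)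
      map_add' := fun z w => by
        have e1 : (z + w).2.1 + (z + w).2.1ᵀ = (z.2.1 + z.2.1ᵀ) + (w.2.1 + w.2.1ᵀ) := by
          rw [Prod.snd_add, Prod.fst_add, transpose_add]
          abel
        have e2 : (fun j : Fin n => (z + w).1 j.succ)
            = (fun j => z.1 j.succ) + fun j => w.1 j.succ := rfl
        rw [e1, e2, map_add, map_add, Prod.fst_add, Pi.add_apply, add_smul]
        abel
      map_smul' := fun r z => by
        have e1 : (r • z).2.1 + (r • z).2.1ᵀ = r • (z.2.1 + z.2.1ᵀ) := by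
          rw [Prod.smul_snd, Prod.smul_fst, transpose_smul, smul_add]
        have e2 : (fun j : Fin n => (r • z).1 j.succ) = r • fun j => z.1 j.succ := rfl
        rw [e1, e2, map_smul, map_smul, Prod.smul_fst, Pi.smul_apply, RingHom.id_apply, smul_sub,
          smul_sub, smul_eq_mul, mul_smul] }
  have h1 := ((Shd.of_linear G hG).inter (hK.comap T)).proj
  refine h1.congr fun v => ?_
  rw [Set.mem_ofPred_eq, Set.mem_ofPred_eq]
  constructor
  · rintro (⟨h0, hv⟩ | ⟨h0, hL, hN⟩)
    · -- t > 0
      set x : Fin n → ℝ := fun j => v j.succ with hx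
      set Y : Matrix (Fin n) (Fin n) ℝ := (2⁻¹ * (v 0)⁻¹) • Matrix.of fun a b => x a * x b with hY
      have hYY : Y + Yᵀ = (v 0)⁻¹ • Matrix.of fun a b => x a * x b := by
        rw [hY]
        ext a b
        simp only [Matrix.add_apply, transpose_apply, Matrix.smul_apply, Matrix.of_apply,
          smul_eq_mul]
        ring
      refine ⟨(Y, 0), ?_, ?_⟩
      · change (blk (v 0) (fun j => v j.succ - ((0 : N) : Fin n → ℝ) j) (Y + Yᵀ)).PosSemidef
        rw [hYY]
        have e1 : (fun j : Fin n => v j.succ - ((0 : N) : Fin n → ℝ) j) = x := by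
          funext j
          simp [hx]
        rw [e1]
        exact blk_outer h0 x
      · change (v 0) • e - L x - qlin S (Y + Yᵀ) ∈ K
        rw [hYY, map_smul, qlin_outer]
        have e1 : (v 0) • e - L x - (v 0)⁻¹ • qval S x
            = (v 0)⁻¹ • ((v 0) ^ 2 • e - (v 0) • L x - qval S x) := by
          rw [smul_sub, smul_sub, smul_smul, smul_smul, inv_mul_cancel₀ h0.ne', one_smul]
          congr 3
          field_simp
        rw [e1]
        exact h.smul (inv_pos.mpr h0) hv
    · -- t = 0
      refine ⟨(0, ⟨fun j => v j.succ, hN⟩), ?_, ?_⟩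
      · change (blk (v 0) (fun j => v j.succ - v j.succ) ((0 : Matrix (Fin n) (Fin n) ℝ)
          + (0 : Matrix (Fin n) (Fin n) ℝ)ᵀ)).PosSemidef
        have e1 : blk (v 0) (fun j : Fin n => v j.succ - v j.succ)
            ((0 : Matrix (Fin n) (Fin n) ℝ) + (0 : Matrix (Fin n) (Fin n) ℝ)ᵀ) = 0 := by
          rw [h0]
          unfold blk
          ext i j
          rcases i with i | i <;> rcases j with j | j <;> simp
        rw [e1]
        exact Matrix.PosSemidef.zero
      · change (v 0) • e - L (fun j => v j.succ) - qlin S ((0 : Matrix (Fin n) (Fin n) ℝ)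
          + (0 : Matrix (Fin n) (Fin n) ℝ)ᵀ) ∈ K
        have e1 : (0 : Matrix (Fin n) (Fin n) ℝ) + (0 : Matrix (Fin n) (Fin n) ℝ)ᵀ = 0 := by simp
        rw [e1, map_zero, h0, zero_smul, sub_zero, zero_sub]
        exact hL
  · rintro ⟨⟨Y, w⟩, hG1, hT1⟩
    change (blk (v 0) (fun j => v j.succ - (w : Fin n → ℝ) j) (Y + Yᵀ)).PosSemidef at hG1
    change (v 0) • e - L (fun j => v j.succ) - qlin S (Y + Yᵀ) ∈ K at hT1
    have ht := blk_zero hG1
    set x : Fin n → ℝ := fun j => v j.succ with hx
    set x' : Fin n → ℝ := fun j => v j.succ - (w : Fin n → ℝ) j with hx'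
    have hxx : x = x' + (w : Fin n → ℝ) := by
      funext j
      simp [hx, hx']
    have hw : -qval S (w : Fin n → ℝ) ∈ K := w.2
    rcases ht.eq_or_lt with h0 | h0
    · right
      have hM : (Y + Yᵀ).PosSemidef := by
        rw [psd_iff]
        obtain ⟨g1, g2⟩ := blk_psd.mp hG1
        refine ⟨g1, fun u => ?_⟩
        have g3 := g2 0 u
        have e1 : v 0 * 0 ^ 2 + 2 * 0 * (∑ j, x' j * u j) = 0 := by ring
        rw [e1, zero_add] at g3
        exact g3
      have hqM := qlin_psd h hq hM
      rw [← h0] at hG1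
      have h2 := blk_nul hG1
      refine ⟨h0.symm, ?_, ?_⟩
      · have h3 := h.add hT1 hqM
        rw [← h0, zero_smul, zero_sub, sub_add_cancel] at h3
        exact h3
      · rw [hxx, h2, zero_add]
        exact hw
    · left
      refine ⟨h0, ?_⟩
      have h2 := blk_schur h0 hG1
      have h3 := qlin_psd h hq h2
      have h4 : (v 0) ^ 2 • e - (v 0) • L x - qval S x' ∈ K := by
        have e1 : (v 0) ^ 2 • e - (v 0) • L x - qval S x'
            = (v 0) • (((v 0) • e - L x - qlin S (Y + Yᵀ))
            + qlin S ((Y + Yᵀ) - (v 0)⁻¹ • Matrix.of fun a b => x' a * x' b)) := by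
          rw [map_sub, map_smul, qlin_outer]
          have e2 : v 0 • e - L x - qlin S (Y + Yᵀ) + (qlin S (Y + Yᵀ) - (v 0)⁻¹ • qval S x')
              = v 0 • e - L x - (v 0)⁻¹ • qval S x' := by abel
          rw [e2, smul_sub, smul_sub, smul_smul, smul_smul, mul_inv_cancel₀ h0.ne', one_smul, sq]
        rw [e1]
        exact h.smul h0 (h.add hT1 h3)
      refine h.lim fun δ hδ => ?_
      obtain ⟨C, hC0, hC⟩ := hu (-qval S x')
      obtain ⟨c, hc0, hc⟩ : ∃ c : ℝ, 0 < c ∧ c ^ 2 * C = δ := by
        refine ⟨Real.sqrt (δ / C), Real.sqrt_pos.mpr (by positivity), ?_⟩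
        rw [Real.sq_sqrt (by positivity)]
        field_simp
      have e1 : (v 0) ^ 2 • e - (v 0) • L x - qval S x + δ • e
          = ((v 0) ^ 2 • e - (v 0) • L x - qval S x') + (c ^ 2 • (C • e + -qval S x')
          + ((1 + (c⁻¹) ^ 2) • (-qval S (w : Fin n → ℝ))
            + qval S (c • x' - c⁻¹ • (w : Fin n → ℝ)))) := by
        have e2 := qval_young S x' (w : Fin n → ℝ) hc0.ne'
        have e3 : (v 0) ^ 2 • e - (v 0) • L x - qval S x + δ • e
            = ((v 0) ^ 2 • e - (v 0) • L x + δ • e) + -qval S (x' + (w : Fin n → ℝ)) := by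
          rw [← hxx]
          abel
        rw [e3, e2, ← hc]
        funext i
        simp only [Pi.add_apply, Pi.sub_apply, Pi.neg_apply, Pi.smul_apply, smul_eq_mul]
        ring
      rw [e1]
      exact h.add h4 (h.add (h.smul (by positivity) hC) (h.add (h.smul (by positivity) hw) (hq _)))

end Vale.Agent.P256L
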