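import Vale.Agent.P256L.Gard
import Vale.Agent.P256L.LinCore

/-!
# P256: the closure rule `P ↦ P(t² e - t L(x) - q(x))`
-/

namespace Vale.Agent.P256L

open Matrix Filter Topology

variable {m n : ℕ}

/-- the linear form `∑ a_j x_j` as a polynomial -/
noncomputable def linForm {n : ℕ} (a : Fin n → ℝ) : MvPolynomial (Fin n) ℝ :=
  ∑ j, MvPolynomial.C (a j) * MvPolynomial.X j

/-- The polynomial `P(t² e - t M x - q(x))` in the variables `t = X 0`, `x_j = X (j+1)`, where `M`
is an `m × n` matrix and `q` is the quadratic map whose `i`-th coordinate is the quadratic form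
with matrix `S i`. -/
noncomputable def pencilLift {m n : ℕ} (P : MvPolynomial (Fin m) ℝ) (e : Fin m → ℝ)
    (M : Matrix (Fin m) (Fin n) ℝ) (S : Fin m → Matrix (Fin n) (Fin n) ℝ) :
    MvPolynomial (Fin (n + 1)) ℝ :=
  MvPolynomial.aeval (fun i => MvPolynomial.C (e i) * MvPolynomial.X 0 ^ 2
    - MvPolynomial.X 0 * MvPolynomial.rename Fin.succ (linForm (M i))
    - MvPolynomial.rename Fin.succ (quadForm (S i))) P

/-- the path `r ↦ r² e - r l - q` -/
def yv (e l q : Fin m → ℝ) (r : ℝ) : Fin m → ℝ := r ^ 2 • e - r • l - q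

section path

variable {P : MvPolynomial (Fin m) ℝ} {e : Fin m → ℝ}

theorem order_unit (h : IsHyperbolic P e) (y : Fin m → ℝ) :
    ∃ c : ℝ, 0 < c ∧ c • e + y ∈ hyperbolicityCone P e := by
  obtain ⟨d, hd⟩ := h.homogeneous
  have hcont : Continuous fun u : ℝ => MvPolynomial.eval (fun i => e i + u * y i) P :=
    (MvPolynomial.continuous_eval P).comp (continuous_pi fun i => by fun_prop)
  have h0 : MvPolynomial.eval (fun i => e i + 0 * y i) P ≠ 0 := by
    have h1 : (fun i => e i + 0 * y i) = e := by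
      funext i
      ring
    rw [h1]
    exact h.pos.ne'
  have hev := hcont.continuousAt.eventually_ne h0
  obtain ⟨ε, hε0, hε⟩ := Metric.eventually_nhds_iff.mp hev
  have hpos : 0 < 2 / ε := by positivity
  refine ⟨2 / ε, hpos, fun t ht => ?_⟩
  by_contra hneg
  push Not at hneg
  set s := t - 2 / ε with hs
  have hs0 : s < 0 := by linarith
  have e1 : (fun i => t * e i - ((2 / ε) • e + y) i) = fun i => s * (e i + (-s⁻¹) * y i) := by
    funext i
    rw [Pi.add_apply, Pi.smul_apply, smul_eq_mul]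
    have h2 : s * s⁻¹ = 1 := mul_inv_cancel₀ hs0.ne
    have h3 : s * (e i + (-s⁻¹) * y i) = s * e i - (s * s⁻¹) * y i := by ring
    rw [h3, h2, hs]
    ring
  rw [e1, eval_scale hd] at ht
  rcases mul_eq_zero.mp ht with h1 | h1
  · exact hs0.ne (eq_zero_of_pow_eq_zero h1)
  · refine hε ?_ h1
    rw [Real.dist_eq, sub_zero, abs_neg, abs_inv]
    have h2 : 2 / ε ≤ |s| := by
      rw [abs_of_neg hs0]
      linarith
    calc |s|⁻¹ ≤ (2 / ε)⁻¹ := inv_anti₀ hpos h2
      _ = ε / 2 := by rw [inv_div]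
      _ < ε := by linarith

theorem cone_nz (h : IsHyperbolic P e) {k : Fin m → ℝ} (hk : k ∈ hyperbolicityCone P e) {c : ℝ}
    (hc : 0 < c) : MvPolynomial.eval (k + c • e) P ≠ 0 := by
  obtain ⟨d, hd⟩ := h.homogeneous
  intro h0
  have h1 := hk (-c) (by
    have e1 : (fun i => -c * e i - k i) = fun i => (-1) * (k + c • e) i := by
      funext i
      rw [Pi.add_apply, Pi.smul_apply, smul_eq_mul]
      ring
    rw [e1, eval_scale hd, h0, mul_zero])
  linarith

theorem cone_slack (h : IsHyperbolic P e) {y : Fin m → ℝ} (hy : y ∈ hyperbolicityCone P e)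
    (hP : MvPolynomial.eval y P ≠ 0) : ∃ ε : ℝ, 0 < ε ∧ y - ε • e ∈ hyperbolicityCone P e := by
  obtain ⟨d, hd⟩ := h.homogeneous
  have hcont : Continuous fun u : ℝ => MvPolynomial.eval (fun i => u * e i - y i) P :=
    (MvPolynomial.continuous_eval P).comp (continuous_pi fun i => by fun_prop)
  have h0 : MvPolynomial.eval (fun i => 0 * e i - y i) P ≠ 0 := by
    have h1 : (fun i => 0 * e i - y i) = fun i => (-1) * y i := by
      funext i
      ring
    rw [h1, eval_scale hd]
    exact mul_ne_zero (pow_ne_zero _ (by norm_num)) hP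
  have hev := hcont.continuousAt.eventually_ne h0
  obtain ⟨ε, hε0, hε⟩ := Metric.eventually_nhds_iff.mp hev
  refine ⟨ε, hε0, fun t ht => ?_⟩
  have e1 : (fun i => t * e i - (y - ε • e) i) = fun i => (t + ε) * e i - y i := by
    funext i
    rw [Pi.sub_apply, Pi.smul_apply, smul_eq_mul]
    ring
  rw [e1] at ht
  have h1 := hy _ ht
  by_contra hneg
  push Not at hneg
  refine hε ?_ ht
  rw [Real.dist_eq, sub_zero, abs_lt]
  constructor <;> linarith

theorem cone_small (h : IsHyperbolic P e) (hK : ConeData (hyperbolicityCone P e) e)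
    (l : Fin m → ℝ) : ∃ c : ℝ, 0 < c ∧ ∀ δ A B : ℝ, |A| + |B| * c ≤ δ →
      δ • e + A • e + B • l ∈ hyperbolicityCone P e := by
  obtain ⟨c1, hc1, h1⟩ := order_unit h l
  obtain ⟨c2, hc2, h2⟩ := order_unit h (-l)
  refine ⟨c1 + c2, by positivity, fun δ A B hAB => ?_⟩
  have hA := neg_abs_le A
  have hb1 := mul_nonneg (abs_nonneg B) hc1.le
  have hb2 := mul_nonneg (abs_nonneg B) hc2.le
  rw [mul_add] at hAB
  rcases le_total 0 B with hB | hB
  · have e1 : δ • e + A • e + B • l = (δ + A - B * c1) • e + B • (c1 • e + l) := by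
      funext i
      simp only [Pi.add_apply, Pi.smul_apply, smul_eq_mul]
      ring
    rw [e1]
    rw [abs_of_nonneg hB] at hAB hb1 hb2
    exact hK.add (hK.smul' (by linarith) hK.dir) (hK.smul' hB h1)
  · have e1 : δ • e + A • e + B • l = (δ + A - (-B) * c2) • e + (-B) • (c2 • e + -l) := by
      funext i
      simp only [Pi.add_apply, Pi.smul_apply, Pi.neg_apply, smul_eq_mul]
      ring
    rw [e1]
    rw [abs_of_nonpos hB] at hAB hb1 hb2
    exact hK.add (hK.smul' (by linarith) hK.dir) (hK.smul' (by linarith) h2)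

theorem path_near (h : IsHyperbolic P e) (hK : ConeData (hyperbolicityCone P e) e)
    (l q : Fin m → ℝ) (r0 : ℝ) {δ : ℝ} (hδ : 0 < δ) :
    ∃ η : ℝ, 0 < η ∧ ∀ r : ℝ, |r - r0| < η →
      δ • e + (yv e l q r - yv e l q r0) ∈ hyperbolicityCone P e ∧
      δ • e + (yv e l q r0 - yv e l q r) ∈ hyperbolicityCone P e := by
  obtain ⟨c, hc, hcs⟩ := cone_small h hK l
  refine ⟨min 1 (δ / (2 * |r0| + 1 + c)), by positivity, fun r hr => ?_⟩
  have hr1 : |r - r0| < 1 := lt_of_lt_of_le hr (min_le_left _ _)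
  have hr2 : |r - r0| * (2 * |r0| + 1 + c) < δ := by
    have h1 := lt_of_lt_of_le hr (min_le_right _ _)
    rwa [lt_div_iff₀ (by positivity)] at h1
  have hsq : |r ^ 2 - r0 ^ 2| ≤ |r - r0| * (2 * |r0| + 1) := by
    have e1 : r ^ 2 - r0 ^ 2 = (r - r0) * (r + r0) := by ring
    rw [e1, abs_mul]
    refine mul_le_mul_of_nonneg_left ?_ (abs_nonneg _)
    have e2 : r + r0 = (r - r0) + 2 * r0 := by ring
    rw [e2]
    refine (abs_add_le _ _).trans ?_
    rw [abs_mul, abs_two]
    linarith
  rw [mul_add] at hr2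
  constructor
  · have e1 : δ • e + (yv e l q r - yv e l q r0)
        = δ • e + (r ^ 2 - r0 ^ 2) • e + (-(r - r0)) • l := by
      funext i
      simp only [yv, Pi.add_apply, Pi.sub_apply, Pi.smul_apply, smul_eq_mul]
      ring
    rw [e1]
    refine hcs _ _ _ ?_
    rw [abs_neg]
    linarith
  · have e1 : δ • e + (yv e l q r0 - yv e l q r)
        = δ • e + (-(r ^ 2 - r0 ^ 2)) • e + (r - r0) • l := by
      funext i
      simp only [yv, Pi.add_apply, Pi.sub_apply, Pi.smul_apply, smul_eq_mul]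
      ring
    rw [e1]
    refine hcs _ _ _ ?_
    rw [abs_neg]
    linarith

theorem path_closed (h : IsHyperbolic P e) (hK : ConeData (hyperbolicityCone P e) e)
    {l q : Fin m → ℝ} {r0 : ℝ} (hall : ∀ r, r0 < r → yv e l q r ∈ hyperbolicityCone P e) :
    yv e l q r0 ∈ hyperbolicityCone P e := by
  refine hK.lim fun δ hδ => ?_
  obtain ⟨η, hη, hn⟩ := path_near h hK l q r0 hδ
  have h1 := (hn (r0 + η / 2) (by
    rw [add_sub_cancel_left, abs_of_pos (by positivity)]
    linarith)).2
  have h2 := hall (r0 + η / 2) (by linarith)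
  have e1 : yv e l q r0 + δ • e = yv e l q (r0 + η / 2)
      + (δ • e + (yv e l q r0 - yv e l q (r0 + η / 2))) := by abel
  rw [e1]
  exact hK.add h2 h1

theorem path_up {l q : Fin m → ℝ} {r r' : ℝ} (hr : 0 < r) :
    yv e l q r' = ((r' / r) • yv e l q r + (r' / r - 1) • q) + (r' ^ 2 - r' * r) • e := by
  funext i
  simp only [yv, Pi.add_apply, Pi.sub_apply, Pi.smul_apply, smul_eq_mul]
  field_simp
  ring

theorem path_main (h : IsHyperbolic P e) (hK : ConeData (hyperbolicityCone P e) e)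
    {l q : Fin m → ℝ} (hq : q ∈ hyperbolicityCone P e) {t : ℝ}
    (hroot : ∀ r, MvPolynomial.eval (yv e l q r) P = 0 → r ≤ t) {r : ℝ} (hr : t < r)
    (hr0 : 0 < r) : yv e l q r ∈ hyperbolicityCone P e := by
  set A : Set ℝ := {s | 0 < s ∧ yv e l q s ∈ hyperbolicityCone P e} with hA
  have hup : ∀ s s' : ℝ, s ∈ A → s ≤ s' → yv e l q s' ∈ hyperbolicityCone P e := by
    rintro s s' ⟨hs, hs1⟩ hss
    rw [path_up (r := s) hs]
    have h1 : 1 ≤ s' / s := by rwa [one_le_div hs]
    refine hK.add (hK.add (hK.smul' (by linarith) hs1) (hK.smul' (by linarith) hq))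
      (hK.smul' ?_ hK.dir)
    nlinarith
  have hne : A.Nonempty := by
    obtain ⟨c2, hc2, h2⟩ := order_unit h (-l)
    obtain ⟨c3, hc3, h3⟩ := order_unit h (-q)
    refine ⟨1 + c2 + c3, by positivity, ?_⟩
    have e1 : yv e l q (1 + c2 + c3) = ((1 + c2 + c3) ^ 2 - (1 + c2 + c3) * c2 - c3) • e
        + ((1 + c2 + c3) • (c2 • e + -l) + (c3 • e + -q)) := by
      funext i
      simp only [yv, Pi.add_apply, Pi.sub_apply, Pi.smul_apply, Pi.neg_apply, smul_eq_mul]
      ring
    rw [e1]
    refine hK.add (hK.smul' ?_ hK.dir) (hK.add (hK.smul' (by positivity) h2) h3)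
    nlinarith [mul_pos hc2 hc3]
  have hbdd : BddBelow A := ⟨0, fun s hs => hs.1.le⟩
  by_contra hbad
  set r' := sInf A with hr'
  have hrr : r ≤ r' := by
    refine le_csInf hne fun s hs => ?_
    by_contra hlt
    push Not at hlt
    exact hbad (hup s r hs hlt.le)
  have habove : ∀ s, r' < s → yv e l q s ∈ hyperbolicityCone P e := by
    intro s hs
    obtain ⟨a, ha, has⟩ := exists_lt_of_csInf_lt hne hs
    exact hup a s ha has.le
  have h1 := path_closed h hK habove
  have h2 : MvPolynomial.eval (yv e l q r') P ≠ 0 := by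
    intro h0
    have := hroot _ h0
    linarith
  obtain ⟨ε, hε, h3⟩ := cone_slack h h1 h2
  obtain ⟨η, hη, hn⟩ := path_near h hK l q r' hε
  set s := max (r' - η / 2) (r' / 2) with hs
  have hr'0 : 0 < r' := lt_of_lt_of_le hr0 hrr
  have hs1 : r' / 2 ≤ s := le_max_right _ _
  have hs2 : s < r' := max_lt (by linarith) (by linarith)
  have hs3 : r' - η / 2 ≤ s := le_max_left _ _
  have h4 := (hn s (by
    rw [abs_lt]
    constructor <;> linarith)).1
  have h5 : yv e l q s ∈ hyperbolicityCone P e := by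
    have e1 : yv e l q s = (yv e l q r' - ε • e) + (ε • e + (yv e l q s - yv e l q r')) := by abel
    rw [e1]
    exact hK.add h3 h4
  have h6 : s ∈ A := ⟨by linarith, h5⟩
  have := csInf_le hbdd h6
  linarith

/-- a vector of the lineality space is a zero of `P` -/
theorem lin_zero (h : IsHyperbolic P e) {d : ℕ} (hd : P.IsHomogeneous d) (hd0 : d ≠ 0)
    {y : Fin m → ℝ} (hy : y ∈ hyperbolicityCone P e) (hy' : -y ∈ hyperbolicityCone P e) :
    MvPolynomial.eval (-y) P = 0 := by
  obtain ⟨t, ht⟩ := exists_real_root h hd hd0 y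
  have h1 := hy t ht
  have h2 := hy' (-t) (by
    have e1 : (fun i => -t * e i - (-y) i) = fun i => (-1) * (t * e i - y i) := by
      funext i
      rw [Pi.neg_apply]
      ring
    rw [e1, eval_scale hd, ht, mul_zero])
  have h3 : t = 0 := by linarith
  rw [← ht, h3]
  congr 2
  funext i
  rw [Pi.neg_apply]
  ring

end path

theorem aeval_conj (P : MvPolynomial (Fin m) ℝ) (v : Fin m → ℂ) :
    MvPolynomial.aeval (fun i => (starRingEnd ℂ) (v i)) P
      = (starRingEnd ℂ) (MvPolynomial.aeval v P) := by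
  have h1 := MvPolynomial.map_aeval v (starRingEnd ℂ) P
  have h2 : (starRingEnd ℂ).comp (algebraMap ℝ ℂ) = algebraMap ℝ ℂ := by
    ext r
    simp
  rw [h2] at h1
  exact h1.symm

theorem linForm_homogeneous (a : Fin n → ℝ) : (linForm a).IsHomogeneous 1 := by
  unfold linForm
  exact MvPolynomial.IsHomogeneous.sum _ _ _ fun j _ =>
    (MvPolynomial.isHomogeneous_X _ j).C_mul _

theorem pencilLift_homogeneous {P : MvPolynomial (Fin m) ℝ} {d : ℕ} (hP : P.IsHomogeneous d)
    (e : Fin m → ℝ) (M : Matrix (Fin m) (Fin n) ℝ) (S : Fin m → Matrix (Fin n) (Fin n) ℝ) :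
    (pencilLift P e M S).IsHomogeneous (2 * d) := by
  unfold pencilLift
  refine hP.aeval _ fun i => ?_
  refine MvPolynomial.IsHomogeneous.sub (MvPolynomial.IsHomogeneous.sub ?_ ?_) ?_
  · exact MvPolynomial.isHomogeneous_C_mul_X_pow _ _ _
  · exact (MvPolynomial.isHomogeneous_X _ 0).mul (linForm_homogeneous (M i)).rename_isHomogeneous
  · exact (quadForm_homogeneous (S i)).rename_isHomogeneous

theorem aeval_pencilLift {A : Type} [CommRing A] [Algebra ℝ A] (P : MvPolynomial (Fin m) ℝ)
    (e : Fin m → ℝ) (M : Matrix (Fin m) (Fin n) ℝ) (S : Fin m → Matrix (Fin n) (Fin n) ℝ)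
    (v : Fin (n + 1) → A) :
    MvPolynomial.aeval v (pencilLift P e M S) = MvPolynomial.aeval (fun i =>
      algebraMap ℝ A (e i) * (v 0) ^ 2 - v 0 * ∑ a, algebraMap ℝ A (M i a) * v (Fin.succ a)
        - ∑ a, ∑ b, algebraMap ℝ A (S i a b) * (v (Fin.succ a) * v (Fin.succ b))) P := by
  unfold pencilLift
  rw [← AlgHom.comp_apply, MvPolynomial.comp_aeval]
  congr 2
  funext i
  unfold quadForm linForm
  simp only [map_sub, map_mul, map_pow, map_sum, MvPolynomial.rename_C, MvPolynomial.rename_X,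
    MvPolynomial.aeval_X, MvPolynomial.aeval_C]

theorem eval_pencilLift (P : MvPolynomial (Fin m) ℝ)
    (e : Fin m → ℝ) (M : Matrix (Fin m) (Fin n) ℝ) (S : Fin m → Matrix (Fin n) (Fin n) ℝ)
    (v : Fin (n + 1) → ℝ) :
    MvPolynomial.eval v (pencilLift P e M S) = MvPolynomial.eval
      (yv e (M *ᵥ fun j => v j.succ) (qval S fun j => v j.succ) (v 0)) P := by
  have h := aeval_pencilLift P e M S v
  rw [aeval_real, aeval_real] at h
  rw [h]
  congr 2
  funext i
  simp only [Algebra.algebraMap_self, RingHom.id_apply, qval, yv, Pi.sub_apply, Pi.smul_apply,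
    smul_eq_mul, mulVec, dotProduct]
  ring

theorem eval_pencilLift_dir (P : MvPolynomial (Fin m) ℝ) (e : Fin m → ℝ)
    (M : Matrix (Fin m) (Fin n) ℝ)
    (S : Fin m → Matrix (Fin n) (Fin n) ℝ) (v : Fin (n + 1) → ℝ) (s : ℝ) :
    MvPolynomial.eval (fun i => s * dir n i - v i) (pencilLift P e M S)
      = MvPolynomial.eval (yv e (M *ᵥ fun j => v j.succ) (qval S fun j => v j.succ) (v 0 - s)) P := by
  rw [eval_pencilLift]
  congr 2
  have h1 : dir n 0 = 1 := by
    unfold dir
    rw [if_pos rfl]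
  have h0 : ∀ j : Fin n, dir n j.succ = 0 := by
    intro j
    unfold dir
    rw [if_neg (Fin.succ_ne_zero j)]
  have e1 : (fun j : Fin n => s * dir n j.succ - v j.succ) = -fun j => v j.succ := by
    funext j
    rw [h0, mul_zero, zero_sub]
    rfl
  funext i
  simp only [e1, h1, mul_one, yv, mulVec_neg, Pi.sub_apply, Pi.smul_apply, Pi.neg_apply,
    smul_eq_mul, qval, neg_mul_neg]
  ring

theorem pencilLift_hyperbolic {P : MvPolynomial (Fin m) ℝ} {e : Fin m → ℝ} (h : IsHyperbolic P e)
    (M : Matrix (Fin m) (Fin n) ℝ)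
    {S : Fin m → Matrix (Fin n) (Fin n) ℝ} (hq : ∀ x, qval S x ∈ hyperbolicityCone P e) :
    IsHyperbolic (pencilLift P e M S) (dir n) := by
  obtain ⟨d, hd⟩ := h.homogeneous
  have hd1 : dir n 0 = 1 := by
    unfold dir
    rw [if_pos rfl]
  have hd0 : ∀ j : Fin n, dir n j.succ = 0 := by
    intro j
    unfold dir
    rw [if_neg (Fin.succ_ne_zero j)]
  refine ⟨⟨2 * d, pencilLift_homogeneous hd e M S⟩, ?_, ?_⟩
  · rw [eval_pencilLift]
    have e1 : yv e (M *ᵥ fun j => dir n j.succ) (qval S fun j => dir n j.succ) (dir n 0) = e := by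
      have h0 : (fun j : Fin n => dir n j.succ) = 0 := by
        funext j
        rw [hd0]
        rfl
      rw [h0, hd1, mulVec_zero]
      funext i
      simp [yv, qval]
    rw [e1]
    exact h.pos
  · intro x z hz
    rw [aeval_pencilLift] at hz
    set x' : Fin n → ℝ := fun j => x j.succ with hx'
    set w := z - ((x 0 : ℝ) : ℂ) with hw
    have e3 : z.im = w.im := by
      rw [hw, Complex.sub_im, Complex.ofReal_im, sub_zero]
    have e1 : (fun i => algebraMap ℝ ℂ (e i) * (z * ((dir n 0 : ℝ) : ℂ) - ((x 0 : ℝ) : ℂ)) ^ 2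
        - (z * ((dir n 0 : ℝ) : ℂ) - ((x 0 : ℝ) : ℂ)) * ∑ a, algebraMap ℝ ℂ (M i a) *
          (z * ((dir n (Fin.succ a) : ℝ) : ℂ) - ((x (Fin.succ a) : ℝ) : ℂ))
        - ∑ a, ∑ b, algebraMap ℝ ℂ (S i a b) *
          ((z * ((dir n (Fin.succ a) : ℝ) : ℂ) - ((x (Fin.succ a) : ℝ) : ℂ)) *
            (z * ((dir n (Fin.succ b) : ℝ) : ℂ) - ((x (Fin.succ b) : ℝ) : ℂ))))
        = fun i => w ^ 2 * (e i : ℂ) + w * ((M *ᵥ x') i : ℂ) - (qval S x' i : ℂ) := by
      funext i
      have hM : ∑ a, algebraMap ℝ ℂ (M i a) *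
          (z * ((dir n (Fin.succ a) : ℝ) : ℂ) - ((x (Fin.succ a) : ℝ) : ℂ))
          = -(((M *ᵥ x') i : ℝ) : ℂ) := by
        simp only [hd0, Complex.ofReal_zero, mul_zero, zero_sub, Complex.coe_algebraMap, mulVec,
          dotProduct, Complex.ofReal_sum, Complex.ofReal_mul, hx', mul_neg,
          Finset.sum_neg_distrib]
      have hS : ∑ a, ∑ b, algebraMap ℝ ℂ (S i a b) *
          ((z * ((dir n (Fin.succ a) : ℝ) : ℂ) - ((x (Fin.succ a) : ℝ) : ℂ)) *
            (z * ((dir n (Fin.succ b) : ℝ) : ℂ) - ((x (Fin.succ b) : ℝ) : ℂ)))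
          = ((qval S x' i : ℝ) : ℂ) := by
        simp only [hd0, Complex.ofReal_zero, mul_zero, zero_sub, neg_mul_neg,
          Complex.coe_algebraMap, qval, Complex.ofReal_sum, Complex.ofReal_mul, hx']
      rw [hM, hS, hd1, Complex.ofReal_one, mul_one, ← hw, Complex.coe_algebraMap]
      ring
    rw [e1] at hz
    have key : ∀ u : ℂ, 0 < u.im → MvPolynomial.aeval (fun i => u ^ 2 * (e i : ℂ)
        + u * ((M *ᵥ x') i : ℂ) - (qval S x' i : ℂ)) P ≠ 0 := by
      intro u hu h0
      have hu0 : u ≠ 0 := by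
        intro h1
        rw [h1] at hu
        simp at hu
      have e2 : (fun i => u ^ 2 * (e i : ℂ) + u * ((M *ᵥ x') i : ℂ) - (qval S x' i : ℂ))
          = fun i => u * (u * (e i : ℂ) + (-u⁻¹) * (qval S x' i : ℂ)
            - 1 * (((-(M *ᵥ x')) i : ℝ) : ℂ)) := by
        funext i
        have h2 : u * u⁻¹ = 1 := mul_inv_cancel₀ hu0
        rw [Pi.neg_apply, Complex.ofReal_neg]
        linear_combination ((qval S x' i : ℂ)) * h2
      rw [e2, aeval_scale hd] at h0
      rcases mul_eq_zero.mp h0 with h1 | h1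
      · exact hu0 (eq_zero_of_pow_eq_zero h1)
      · refine gF_ne_zero h (hq x') (-(M *ᵥ x')) hu (w := -u⁻¹) ?_ h1
        rw [Complex.neg_im, Complex.inv_im, neg_div, neg_neg]
        exact div_nonneg hu.le (Complex.normSq_nonneg _)
    rw [e3]
    rcases lt_trichotomy w.im 0 with h1 | h1 | h1
    · exfalso
      refine key ((starRingEnd ℂ) w) (by rw [Complex.conj_im]; linarith) ?_
      have e4 : (fun i => (starRingEnd ℂ) w ^ 2 * (e i : ℂ)
          + (starRingEnd ℂ) w * ((M *ᵥ x') i : ℂ) - (qval S x' i : ℂ))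
          = fun i => (starRingEnd ℂ) (w ^ 2 * (e i : ℂ) + w * ((M *ᵥ x') i : ℂ)
            - (qval S x' i : ℂ)) := by
        funext i
        simp only [map_sub, map_add, map_mul, map_pow, Complex.conj_ofReal]
      rw [e4, aeval_conj, hz, map_zero]
    · exact h1
    · exact absurd hz (key w h1)

theorem mem_cone_pencilLift {P : MvPolynomial (Fin m) ℝ} {e : Fin m → ℝ} (h : IsHyperbolic P e)
    (hK : ConeData (hyperbolicityCone P e) e)
    {d : ℕ} (hd : P.IsHomogeneous d) (hd0 : d ≠ 0) (M : Matrix (Fin m) (Fin n) ℝ)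
    {S : Fin m → Matrix (Fin n) (Fin n) ℝ} (hq : ∀ x, qval S x ∈ hyperbolicityCone P e)
    (v : Fin (n + 1) → ℝ) :
    v ∈ hyperbolicityCone (pencilLift P e M S) (dir n) ↔
      (0 < v 0 ∧ (v 0) ^ 2 • e - (v 0) • (M *ᵥ fun j => v j.succ)
        - qval S (fun j => v j.succ) ∈ hyperbolicityCone P e) ∨
      (v 0 = 0 ∧ -(M *ᵥ fun j => v j.succ) ∈ hyperbolicityCone P e ∧
        -qval S (fun j => v j.succ) ∈ hyperbolicityCone P e) := by
  set q := qval S (fun j => v j.succ) with hqv
  set l := M *ᵥ fun j => v j.succ with hl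
  have hqK : q ∈ hyperbolicityCone P e := hq _
  have hev : ∀ s : ℝ, MvPolynomial.eval (fun i => s * dir n i - v i) (pencilLift P e M S)
      = MvPolynomial.eval (yv e l q (v 0 - s)) P := fun s => eval_pencilLift_dir P e M S v s
  constructor
  · intro hv
    have hroot : ∀ r, MvPolynomial.eval (yv e l q r) P = 0 → r ≤ v 0 := by
      intro r hr
      have h1 := hv (v 0 - r) (by rw [hev, sub_sub_cancel]; exact hr)
      linarith
    have hmain := fun r (h1 : v 0 < r) (h2 : 0 < r) => path_main h hK hqK hroot h1 h2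
    rcases lt_or_ge 0 (v 0) with h0 | h0
    · left
      refine ⟨h0, ?_⟩
      exact path_closed h hK fun r hr => hmain r hr (h0.trans hr)
    · right
      have hpos : ∀ r : ℝ, 0 < r → yv e l q r ∈ hyperbolicityCone P e :=
        fun r hr => hmain r (lt_of_le_of_lt h0 hr) hr
      have hy0 : yv e l q 0 = -q := by
        funext i
        simp [yv]
      have hnq : -q ∈ hyperbolicityCone P e := by
        rw [← hy0]
        exact path_closed h hK hpos
      have h1 := hroot 0 (by rw [hy0]; exact lin_zero h hd hd0 hqK hnq)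
      refine ⟨le_antisymm h0 h1, ?_, hnq⟩
      refine hK.lim fun δ hδ => ?_
      have e1 : -l + δ • e = δ⁻¹ • (yv e l q δ + q) := by
        funext i
        simp only [yv, Pi.add_apply, Pi.sub_apply, Pi.smul_apply, Pi.neg_apply, smul_eq_mul]
        field_simp
        ring
      rw [e1]
      exact hK.smul (inv_pos.mpr hδ) (hK.add (hpos δ hδ) hqK)
  · rintro (⟨h0, hv⟩ | ⟨h0, hL, hN⟩) s hs
    · rw [hev] at hs
      by_contra hneg
      push Not at hneg
      set r := v 0 - s with hr
      have hvr : v 0 < r := by linarith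
      rw [path_up (r := v 0) h0] at hs
      have h1 : 1 ≤ r / v 0 := by rw [one_le_div h0]; exact hvr.le
      refine cone_nz h (hK.add (hK.smul' (by linarith) hv) (hK.smul' (by linarith) hqK)) ?_ hs
      nlinarith
    · rw [hev, h0, zero_sub] at hs
      by_contra hneg
      push Not at hneg
      have e1 : yv e l q (-s) = ((-s) • (-l) + (-q)) + ((-s) ^ 2) • e := by
        funext i
        simp only [yv, Pi.add_apply, Pi.sub_apply, Pi.smul_apply, Pi.neg_apply, smul_eq_mul]
        ring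
      rw [e1] at hs
      refine cone_nz h (hK.add (hK.smul' (by linarith) hL) hN) ?_ hs
      have : 0 < -s := by linarith
      positivity

/-- THE CLOSURE RULE with a linear term -/
theorem closure_rule_lin {P : MvPolynomial (Fin m) ℝ} {e : Fin m → ℝ} (h : IsHyperbolic P e)
    (hs : IsSpectrahedralShadow (hyperbolicityCone P e)) (M : Matrix (Fin m) (Fin n) ℝ)
    {S : Fin m → Matrix (Fin n) (Fin n) ℝ} (hq : ∀ x, qval S x ∈ hyperbolicityCone P e) :
    IsHyperbolic (pencilLift P e M S) (dir n) ∧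
      IsSpectrahedralShadow (hyperbolicityCone (pencilLift P e M S) (dir n)) := by
  refine ⟨pencilLift_hyperbolic h M hq, ?_⟩
  have hs' := Shd.of_isShadow hs
  obtain ⟨d, hd⟩ := h.homogeneous
  refine Shd.isShadow ?_
  by_cases hd0 : d = 0
  · -- constant polynomial: the cone is everything
    let G : (Fin (n + 1) → ℝ) →ₗ[ℝ] Matrix (Fin 0) (Fin 0) ℝ := 0
    refine (Shd.of_linear G (fun v => Matrix.isSymm_zero)).congr fun v => ?_
    have h2 : (pencilLift P e M S).IsHomogeneous 0 := by
      have h3 := pencilLift_homogeneous hd e M S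
      rw [hd0] at h3
      exact h3
    have h4 := pencilLift_hyperbolic h M hq
    constructor
    · intro _
      exact Matrix.PosSemidef.zero
    · intro _ t ht
      exfalso
      have h5 : ∀ u w : Fin (n + 1) → ℝ, MvPolynomial.eval u (pencilLift P e M S)
          = MvPolynomial.eval w (pencilLift P e M S) := by
        intro u w
        have h6 := eval_scale h2 0 u
        have h7 := eval_scale h2 0 w
        rw [pow_zero, one_mul] at h6 h7
        simp only [zero_mul] at h6 h7
        rw [← h6, ← h7]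
      rw [h5 _ (dir n)] at ht
      exact h4.pos.ne' ht
  · refine (core_lift_lin (coneData h hs') hs' (order_unit h) (Matrix.mulVecLin M) hq).congr
      fun v => ?_
    exact mem_cone_pencilLift h (coneData h hs') hd hd0 M hq v

end Vale.Agent.P256L
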