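import Vale.Agent.P256L.Tower

/-!
# P256: quadratic matrix polynomials `det(t² E - Q(x))`
-/

namespace Vale.Agent.P256L

open Matrix

variable {n N : ℕ}

/-- first index of a pair coded by a number -/
def fstIdx (k : Fin (n * n)) : Fin n := (finProdFinEquiv.symm k).1

/-- second index of a pair coded by a number -/
def sndIdx (k : Fin (n * n)) : Fin n := (finProdFinEquiv.symm k).2

theorem sum_idx {M : Type} [AddCommMonoid M] (f : Fin n → Fin n → M) :
    ∑ k : Fin (n * n), f (fstIdx k) (sndIdx k) = ∑ a, ∑ b, f a b := by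
  rw [← Fintype.sum_prod_type' f]
  exact finProdFinEquiv.symm.sum_comp (fun x : Fin n × Fin n => f x.1 x.2)

theorem quadForm_zero : quadForm (0 : Matrix (Fin n) (Fin n) ℝ) = 0 := by
  unfold quadForm
  refine Finset.sum_eq_zero fun a _ => Finset.sum_eq_zero fun b _ => ?_
  rw [Matrix.zero_apply, map_zero, zero_mul]

theorem quadForm_single (a b : Fin n) :
    quadForm (Matrix.single a b (1 : ℝ)) = MvPolynomial.X a * MvPolynomial.X b := by
  unfold quadForm
  rw [Finset.sum_eq_single a]
  · rw [Finset.sum_eq_single b]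
    · rw [Matrix.single_apply_same, map_one, one_mul]
    · intro c _ hc
      rw [Matrix.single_apply_of_ne _ _ _ _ _ (fun h => hc h.2.symm), map_zero, zero_mul]
    · intro h0
      exact absurd (Finset.mem_univ _) h0
  · intro c _ hc
    refine Finset.sum_eq_zero fun d _ => ?_
    rw [Matrix.single_apply_of_ne _ _ _ _ _ (fun h => hc h.1.symm), map_zero, zero_mul]
  · intro h0
    exact absurd (Finset.mem_univ _) h0

/-- the pencil -/
def mqA (E : Matrix (Fin N) (Fin N) ℝ) (C : Fin n → Fin n → Matrix (Fin N) (Fin N) ℝ) :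
    Fin (n * n + 1) → Matrix (Fin N) (Fin N) ℝ :=
  Fin.cons E fun k => C (fstIdx k) (sndIdx k)

/-- the quadratic map -/
def mqS (n : ℕ) : Fin (n * n + 1) → Matrix (Fin n) (Fin n) ℝ :=
  Fin.cons 0 fun k => Matrix.single (fstIdx k) (sndIdx k) 1

theorem dir_zero (k : ℕ) : dir k 0 = 1 := by
  unfold dir
  rw [if_pos rfl]

theorem dir_succ (k : ℕ) (j : Fin k) : dir k j.succ = 0 := by
  unfold dir
  rw [if_neg (Fin.succ_ne_zero j)]

theorem matQuadPoly_eq (E : Matrix (Fin N) (Fin N) ℝ)
    (C : Fin n → Fin n → Matrix (Fin N) (Fin N) ℝ) :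
    matQuadPoly E C = quadLift (detPoly (mqA E C)) (dir (n * n)) (mqS n) := by
  unfold matQuadPoly quadLift
  rw [aeval_detPoly]
  congr 1
  ext1 r s
  rw [Matrix.of_apply, Matrix.of_apply, Fin.sum_univ_succ]
  have e0 : algebraMap ℝ (MvPolynomial (Fin (n + 1)) ℝ) (mqA E C 0 r s)
      * (MvPolynomial.C (dir (n * n) 0) * MvPolynomial.X 0 ^ 2
        - MvPolynomial.rename Fin.succ (quadForm (mqS n 0)))
      = MvPolynomial.C (E r s) * MvPolynomial.X 0 ^ 2 := by
    rw [dir_zero, map_one, one_mul]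
    change algebraMap ℝ (MvPolynomial (Fin (n + 1)) ℝ) (E r s) * (MvPolynomial.X 0 ^ 2
        - MvPolynomial.rename Fin.succ (quadForm (0 : Matrix (Fin n) (Fin n) ℝ))) = _
    rw [quadForm_zero, map_zero, sub_zero]
    rfl
  have e1 : ∀ k : Fin (n * n), algebraMap ℝ (MvPolynomial (Fin (n + 1)) ℝ) (mqA E C k.succ r s)
      * (MvPolynomial.C (dir (n * n) k.succ) * MvPolynomial.X 0 ^ 2
        - MvPolynomial.rename Fin.succ (quadForm (mqS n k.succ)))
      = -(MvPolynomial.C (C (fstIdx k) (sndIdx k) r s) * (MvPolynomial.X (Fin.succ (fstIdx k)) *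
        MvPolynomial.X (Fin.succ (sndIdx k)))) := by
    intro k
    rw [dir_succ, map_zero, zero_mul, zero_sub]
    change algebraMap ℝ (MvPolynomial (Fin (n + 1)) ℝ) (C (fstIdx k) (sndIdx k) r s) *
      -(MvPolynomial.rename Fin.succ (quadForm (Matrix.single (fstIdx k) (sndIdx k) (1 : ℝ)))) = _
    rw [quadForm_single, map_mul, MvPolynomial.rename_X, MvPolynomial.rename_X, mul_neg]
    rfl
  rw [e0, Finset.sum_congr rfl fun k _ => e1 k, Finset.sum_neg_distrib,
    sum_idx (fun a b => MvPolynomial.C (C a b r s) * ((MvPolynomial.X (Fin.succ a) *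
        MvPolynomial.X (Fin.succ b)) : MvPolynomial (Fin (n + 1)) ℝ))]
  ring

theorem matQuad_main {E : Matrix (Fin N) (Fin N) ℝ} (hE : E.PosDef)
    {C : Fin n → Fin n → Matrix (Fin N) (Fin N) ℝ} (hC : ∀ a b, (C a b).IsSymm)
    (hpos : ∀ x : Fin n → ℝ, (∑ a, ∑ b, (x a * x b) • C a b).PosSemidef) :
    IsHyperbolic (matQuadPoly E C) (dir n) ∧
      IsSpectrahedralShadow (hyperbolicityCone (matQuadPoly E C) (dir n)) := by
  have hA : ∀ i, (mqA E C i).IsSymm := by
    intro i
    refine Fin.cases ?_ (fun k => ?_) i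
    · exact (isHermitian_iff_isSymm E).mp hE.isHermitian
    · exact hC _ _
  have hsum : ∀ f : Fin (n * n + 1) → ℝ, ∑ i, f i • mqA E C i
      = f 0 • E + ∑ k : Fin (n * n), f k.succ • C (fstIdx k) (sndIdx k) := by
    intro f
    rw [Fin.sum_univ_succ]
    rfl
  have he : (∑ i, dir (n * n) i • mqA E C i).PosDef := by
    rw [hsum, dir_zero, one_smul]
    simp only [dir_succ, zero_smul, Finset.sum_const_zero, add_zero]
    exact hE
  rw [matQuadPoly_eq]
  refine closure_rule (detPoly_hyperbolic hA he) (detPoly_shadow hA he) fun x => ?_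
  rw [mem_cone_detPoly hA he, hsum]
  have hv := qval_eq (mqS n) x
  have h0 : qval (mqS n) x 0 = 0 := by
    rw [← hv]
    change MvPolynomial.eval x (quadForm (0 : Matrix (Fin n) (Fin n) ℝ)) = 0
    rw [quadForm_zero, map_zero]
  have hs : ∀ k : Fin (n * n), qval (mqS n) x k.succ = x (fstIdx k) * x (sndIdx k) := by
    intro k
    rw [← hv]
    change MvPolynomial.eval x (quadForm (Matrix.single (fstIdx k) (sndIdx k) (1 : ℝ))) = _
    rw [quadForm_single, map_mul, MvPolynomial.eval_X, MvPolynomial.eval_X]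
  rw [h0, zero_smul, zero_add]
  simp only [hs]
  rw [sum_idx (fun a b => (x a * x b) • C a b)]
  exact hpos x

end Vale.Agent.P256L
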