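import Vale.Agent.P256L.LinRule
import Vale.Agent.P256L.MatQuad

/-!
# P256: the tower with linear terms; quadratic matrix polynomials `det(t² E - t L(x) - Q(x))`
-/

namespace Vale.Agent.P256L

open Matrix

variable {m n N : ℕ}

/-- the smallest class of pairs `(p, e)` containing the definite determinantal polynomials and
closed under products, linear substitutions, and `P ↦ P(t² e - t M x - q(x))` for every matrix `M`
and every quadratic map `q` with values in the hyperbolicity cone of `P` -/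
inductive PencilTower : (n : ℕ) → MvPolynomial (Fin n) ℝ → (Fin n → ℝ) → Prop
  | det {n N : ℕ} (c : ℝ) (A : Fin n → Matrix (Fin N) (Fin N) ℝ) (e : Fin n → ℝ) (hc : 0 < c)
      (hA : ∀ i, (A i).IsSymm) (he : (∑ i, e i • A i).PosDef) :
      PencilTower n (MvPolynomial.C c * detPoly A) e
  | mul {n : ℕ} (p p' : MvPolynomial (Fin n) ℝ) (e : Fin n → ℝ) (h : PencilTower n p e)
      (h' : PencilTower n p' e) : PencilTower n (p * p') e
  | linear {m n : ℕ} (P : MvPolynomial (Fin m) ℝ) (e : Fin m → ℝ) (L : Matrix (Fin m) (Fin n) ℝ)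
      (e' : Fin n → ℝ) (h : PencilTower m P e) (hL : L *ᵥ e' = e) :
      PencilTower n (linSub L P) e'
  | pencil {m n : ℕ} (P : MvPolynomial (Fin m) ℝ) (e : Fin m → ℝ)
      (M : Matrix (Fin m) (Fin n) ℝ) (S : Fin m → Matrix (Fin n) (Fin n) ℝ)
      (h : PencilTower m P e)
      (hq : ∀ x : Fin n → ℝ,
        (fun i => MvPolynomial.eval x (quadForm (S i))) ∈ hyperbolicityCone P e) :
      PencilTower (n + 1) (pencilLift P e M S) (dir n)

theorem pencilTower_main {n : ℕ} {p : MvPolynomial (Fin n) ℝ} {e : Fin n → ℝ}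
    (h : PencilTower n p e) :
    IsHyperbolic p e ∧ IsSpectrahedralShadow (hyperbolicityCone p e) := by
  induction h with
  | det c A e hc hA he =>
    refine ⟨smul_hyperbolic (detPoly_hyperbolic hA he) hc, ?_⟩
    rw [cone_smul_eq hc]
    exact detPoly_shadow hA he
  | mul p p' e h h' ih ih' => exact ⟨mul_hyperbolic ih.1 ih'.1, mul_shadow ih.2 ih'.2⟩
  | linear P e L e' h hL ih => exact ⟨linSub_hyperbolic ih.1 hL, linSub_shadow ih.2 hL⟩
  | pencil P e M S h hq ih =>
    refine closure_rule_lin ih.1 ih.2 M fun x => ?_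
    rw [← qval_eq]
    exact hq x

/-- the polynomial `det(t² E - t ∑ x_a L_a - ∑ x_a x_b C_ab)` -/
noncomputable def matPencilPoly {n N : ℕ} (E : Matrix (Fin N) (Fin N) ℝ)
    (L : Fin n → Matrix (Fin N) (Fin N) ℝ)
    (C : Fin n → Fin n → Matrix (Fin N) (Fin N) ℝ) : MvPolynomial (Fin (n + 1)) ℝ :=
  (Matrix.of fun i j => MvPolynomial.C (E i j) * MvPolynomial.X 0 ^ 2
    - MvPolynomial.X 0 * ∑ a, MvPolynomial.C (L a i j) * MvPolynomial.X (Fin.succ a)
    - ∑ a, ∑ b, MvPolynomial.C (C a b i j) * (MvPolynomial.X (Fin.succ a) *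
        MvPolynomial.X (Fin.succ b))).det

/-- the pencil -/
def mpA (E : Matrix (Fin N) (Fin N) ℝ) (L : Fin n → Matrix (Fin N) (Fin N) ℝ)
    (C : Fin n → Fin n → Matrix (Fin N) (Fin N) ℝ) :
    Fin (n + n * n + 1) → Matrix (Fin N) (Fin N) ℝ :=
  Fin.cons E (Fin.append L fun k => C (fstIdx k) (sndIdx k))

/-- the quadratic map -/
def mpS (n : ℕ) : Fin (n + n * n + 1) → Matrix (Fin n) (Fin n) ℝ :=
  Fin.cons 0 (Fin.append (fun _ => 0) fun k => Matrix.single (fstIdx k) (sndIdx k) 1)

/-- the linear map -/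
def mpM (n : ℕ) : Matrix (Fin (n + n * n + 1)) (Fin n) ℝ :=
  Fin.cons 0 (Fin.append (fun a => Pi.single a 1) fun _ => 0)

theorem linForm_zero : linForm (0 : Fin n → ℝ) = 0 := by
  unfold linForm
  refine Finset.sum_eq_zero fun a _ => ?_
  rw [Pi.zero_apply, map_zero, zero_mul]

theorem linForm_single (a : Fin n) :
    linForm (Pi.single a (1 : ℝ)) = MvPolynomial.X a := by
  unfold linForm
  rw [Finset.sum_eq_single a]
  · rw [Pi.single_eq_same, map_one, one_mul]
  · intro b _ hb
    rw [Pi.single_eq_of_ne hb, map_zero, zero_mul]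
  · intro h0
    exact absurd (Finset.mem_univ _) h0

theorem mpA_left (E : Matrix (Fin N) (Fin N) ℝ) (L : Fin n → Matrix (Fin N) (Fin N) ℝ)
    (C : Fin n → Fin n → Matrix (Fin N) (Fin N) ℝ) (a : Fin n) :
    mpA E L C (Fin.castAdd (n * n) a).succ = L a := by
  unfold mpA
  rw [Fin.cons_succ, Fin.append_left]

theorem mpA_right (E : Matrix (Fin N) (Fin N) ℝ) (L : Fin n → Matrix (Fin N) (Fin N) ℝ)
    (C : Fin n → Fin n → Matrix (Fin N) (Fin N) ℝ) (k : Fin (n * n)) :
    mpA E L C (Fin.natAdd n k).succ = C (fstIdx k) (sndIdx k) := by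
  unfold mpA
  rw [Fin.cons_succ, Fin.append_right]

theorem mpS_left (a : Fin n) : mpS n (Fin.castAdd (n * n) a).succ = 0 := by
  unfold mpS
  rw [Fin.cons_succ, Fin.append_left]

theorem mpS_right (k : Fin (n * n)) :
    mpS n (Fin.natAdd n k).succ = Matrix.single (fstIdx k) (sndIdx k) 1 := by
  unfold mpS
  rw [Fin.cons_succ, Fin.append_right]

theorem mpM_left (a : Fin n) : mpM n (Fin.castAdd (n * n) a).succ = Pi.single a 1 := by
  unfold mpM
  rw [Fin.cons_succ, Fin.append_left]

theorem mpM_right (k : Fin (n * n)) : mpM n (Fin.natAdd n k).succ = 0 := by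
  unfold mpM
  rw [Fin.cons_succ, Fin.append_right]

theorem matPencilPoly_eq (E : Matrix (Fin N) (Fin N) ℝ) (L : Fin n → Matrix (Fin N) (Fin N) ℝ)
    (C : Fin n → Fin n → Matrix (Fin N) (Fin N) ℝ) :
    matPencilPoly E L C
      = pencilLift (detPoly (mpA E L C)) (dir (n + n * n)) (mpM n) (mpS n) := by
  unfold matPencilPoly pencilLift
  rw [aeval_detPoly]
  congr 1
  ext1 r s
  rw [Matrix.of_apply, Matrix.of_apply, Fin.sum_univ_succ, Fin.sum_univ_add]
  have e0 : algebraMap ℝ (MvPolynomial (Fin (n + 1)) ℝ) (mpA E L C 0 r s)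
      * (MvPolynomial.C (dir (n + n * n) 0) * MvPolynomial.X 0 ^ 2
        - MvPolynomial.X 0 * MvPolynomial.rename Fin.succ (linForm (mpM n 0))
        - MvPolynomial.rename Fin.succ (quadForm (mpS n 0)))
      = MvPolynomial.C (E r s) * MvPolynomial.X 0 ^ 2 := by
    rw [dir_zero, map_one, one_mul]
    change algebraMap ℝ (MvPolynomial (Fin (n + 1)) ℝ) (E r s) * (MvPolynomial.X 0 ^ 2
        - MvPolynomial.X 0 * MvPolynomial.rename Fin.succ (linForm (0 : Fin n → ℝ))
        - MvPolynomial.rename Fin.succ (quadForm (0 : Matrix (Fin n) (Fin n) ℝ))) = _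
    rw [quadForm_zero, linForm_zero, map_zero, mul_zero, sub_zero, sub_zero]
    rfl
  have e1 : ∀ a : Fin n, algebraMap ℝ (MvPolynomial (Fin (n + 1)) ℝ)
      (mpA E L C (Fin.castAdd (n * n) a).succ r s)
      * (MvPolynomial.C (dir (n + n * n) (Fin.castAdd (n * n) a).succ) * MvPolynomial.X 0 ^ 2
        - MvPolynomial.X 0 * MvPolynomial.rename Fin.succ
          (linForm (mpM n (Fin.castAdd (n * n) a).succ))
        - MvPolynomial.rename Fin.succ (quadForm (mpS n (Fin.castAdd (n * n) a).succ)))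
      = -(MvPolynomial.X 0 * (MvPolynomial.C (L a r s) * MvPolynomial.X (Fin.succ a))) := by
    intro a
    rw [dir_succ, map_zero, zero_mul, zero_sub, mpA_left, mpM_left, mpS_left, quadForm_zero,
      map_zero, sub_zero, linForm_single, MvPolynomial.rename_X, MvPolynomial.algebraMap_eq]
    ring
  have e2 : ∀ k : Fin (n * n), algebraMap ℝ (MvPolynomial (Fin (n + 1)) ℝ)
      (mpA E L C (Fin.natAdd n k).succ r s)
      * (MvPolynomial.C (dir (n + n * n) (Fin.natAdd n k).succ) * MvPolynomial.X 0 ^ 2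
        - MvPolynomial.X 0 * MvPolynomial.rename Fin.succ (linForm (mpM n (Fin.natAdd n k).succ))
        - MvPolynomial.rename Fin.succ (quadForm (mpS n (Fin.natAdd n k).succ)))
      = -(MvPolynomial.C (C (fstIdx k) (sndIdx k) r s) * (MvPolynomial.X (Fin.succ (fstIdx k)) *
        MvPolynomial.X (Fin.succ (sndIdx k)))) := by
    intro k
    rw [dir_succ, map_zero, zero_mul, zero_sub, mpA_right, mpM_right, mpS_right, linForm_zero,
      map_zero, mul_zero, neg_zero, zero_sub, quadForm_single, map_mul, MvPolynomial.rename_X,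
      MvPolynomial.rename_X, MvPolynomial.algebraMap_eq, mul_neg]
  rw [e0, Finset.sum_congr rfl fun a _ => e1 a, Finset.sum_congr rfl fun k _ => e2 k,
    Finset.sum_neg_distrib, Finset.sum_neg_distrib, ← Finset.mul_sum,
    sum_idx (fun a b => MvPolynomial.C (C a b r s) * ((MvPolynomial.X (Fin.succ a) *
        MvPolynomial.X (Fin.succ b)) : MvPolynomial (Fin (n + 1)) ℝ))]
  ring

theorem matPencil_main {E : Matrix (Fin N) (Fin N) ℝ} (hE : E.PosDef)
    {L : Fin n → Matrix (Fin N) (Fin N) ℝ} (hL : ∀ a, (L a).IsSymm)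
    {C : Fin n → Fin n → Matrix (Fin N) (Fin N) ℝ} (hC : ∀ a b, (C a b).IsSymm)
    (hpos : ∀ x : Fin n → ℝ, (∑ a, ∑ b, (x a * x b) • C a b).PosSemidef) :
    IsHyperbolic (matPencilPoly E L C) (dir n) ∧
      IsSpectrahedralShadow (hyperbolicityCone (matPencilPoly E L C) (dir n)) := by
  have hA : ∀ i, (mpA E L C i).IsSymm := by
    intro i
    refine Fin.cases ?_ (fun k => ?_) i
    · exact (isHermitian_iff_isSymm E).mp hE.isHermitian
    · refine Fin.addCases (fun a => ?_) (fun j => ?_) k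
      · rw [mpA_left]
        exact hL a
      · rw [mpA_right]
        exact hC _ _
  have hsum : ∀ f : Fin (n + n * n + 1) → ℝ, ∑ i, f i • mpA E L C i
      = f 0 • E + (∑ a : Fin n, f (Fin.castAdd (n * n) a).succ • L a
        + ∑ k : Fin (n * n), f (Fin.natAdd n k).succ • C (fstIdx k) (sndIdx k)) := by
    intro f
    rw [Fin.sum_univ_succ, Fin.sum_univ_add]
    simp only [mpA_left, mpA_right]
    rfl
  have he : (∑ i, dir (n + n * n) i • mpA E L C i).PosDef := by
    rw [hsum, dir_zero, one_smul]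
    simp only [dir_succ, zero_smul, Finset.sum_const_zero, add_zero]
    exact hE
  rw [matPencilPoly_eq]
  refine closure_rule_lin (detPoly_hyperbolic hA he) (detPoly_shadow hA he) (mpM n) fun x => ?_
  rw [mem_cone_detPoly hA he, hsum]
  have hv := qval_eq (mpS n) x
  have h0 : qval (mpS n) x 0 = 0 := by
    rw [← hv]
    change MvPolynomial.eval x (quadForm (0 : Matrix (Fin n) (Fin n) ℝ)) = 0
    rw [quadForm_zero, map_zero]
  have hl : ∀ a : Fin n, qval (mpS n) x (Fin.castAdd (n * n) a).succ = 0 := by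
    intro a
    rw [← hv]
    change MvPolynomial.eval x (quadForm (mpS n (Fin.castAdd (n * n) a).succ)) = 0
    rw [mpS_left, quadForm_zero, map_zero]
  have hs : ∀ k : Fin (n * n), qval (mpS n) x (Fin.natAdd n k).succ
      = x (fstIdx k) * x (sndIdx k) := by
    intro k
    rw [← hv]
    change MvPolynomial.eval x (quadForm (mpS n (Fin.natAdd n k).succ)) = _
    rw [mpS_right, quadForm_single, map_mul, MvPolynomial.eval_X, MvPolynomial.eval_X]
  rw [h0, zero_smul, zero_add]
  simp only [hl, hs, zero_smul, Finset.sum_const_zero, zero_add]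
  rw [sum_idx (fun a b => (x a * x b) • C a b)]
  exact hpos x

end Vale.Agent.P256L
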