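import Vale.Agent.P256L.Hyp

/-!
# P256: the closure rule `P ↦ P(t² e - q(x))`
-/

namespace Vale.Agent.P256L

open Matrix

variable {m n : ℕ}

theorem real_of_sq {w : ℂ} {r : ℝ} (hr : 0 ≤ r) (h : w ^ 2 = (r : ℂ)) : w.im = 0 := by
  have h1 := congrArg Complex.re h
  have h2 := congrArg Complex.im h
  rw [sq, Complex.mul_re, Complex.ofReal_re] at h1
  rw [sq, Complex.mul_im, Complex.ofReal_im] at h2
  have h3 : w.re * w.im = 0 := by linarith
  rcases mul_eq_zero.mp h3 with h4 | h4
  · rw [h4] at h1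
    nlinarith [mul_self_nonneg w.im]
  · exact h4

theorem quadLift_homogeneous {P : MvPolynomial (Fin m) ℝ} {d : ℕ} (hP : P.IsHomogeneous d)
    (e : Fin m → ℝ) (S : Fin m → Matrix (Fin n) (Fin n) ℝ) :
    (quadLift P e S).IsHomogeneous (2 * d) := by
  unfold quadLift
  refine hP.aeval _ fun i => ?_
  refine MvPolynomial.IsHomogeneous.sub ?_ ?_
  · exact MvPolynomial.isHomogeneous_C_mul_X_pow _ _ _
  · exact (quadForm_homogeneous (S i)).rename_isHomogeneous

theorem quadLift_hyperbolic {P : MvPolynomial (Fin m) ℝ} {e : Fin m → ℝ} (h : IsHyperbolic P e)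
    {S : Fin m → Matrix (Fin n) (Fin n) ℝ} (hq : ∀ x, qval S x ∈ hyperbolicityCone P e) :
    IsHyperbolic (quadLift P e S) (dir n) := by
  obtain ⟨d, hd⟩ := h.homogeneous
  refine ⟨⟨2 * d, quadLift_homogeneous hd e S⟩, ?_, ?_⟩
  · rw [eval_quadLift]
    have e1 : (fun i => (dir n 0) ^ 2 * e i - qval S (fun j => dir n j.succ) i) = e := by
      funext i
      have h0 : (fun j : Fin n => dir n j.succ) = 0 := by
        funext j
        unfold dir
        rw [if_neg (Fin.succ_ne_zero j)]
        rfl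
      have h1 : dir n 0 = 1 := by
        unfold dir
        rw [if_pos rfl]
      rw [h0, h1]
      simp [qval]
    rw [e1]
    exact h.pos
  · intro x z hz
    rw [aeval_quadLift] at hz
    set x' : Fin n → ℝ := fun j => x j.succ with hx'
    have e1 : (fun i => algebraMap ℝ ℂ (e i) * (z * ((dir n 0 : ℝ) : ℂ) - ((x 0 : ℝ) : ℂ)) ^ 2
        - ∑ a, ∑ b, algebraMap ℝ ℂ (S i a b) *
          ((z * ((dir n (Fin.succ a) : ℝ) : ℂ) - ((x (Fin.succ a) : ℝ) : ℂ)) *
            (z * ((dir n (Fin.succ b) : ℝ) : ℂ) - ((x (Fin.succ b) : ℝ) : ℂ))))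
        = fun i => (z - ((x 0 : ℝ) : ℂ)) ^ 2 * (e i : ℂ) - (qval S x' i : ℂ) := by
      funext i
      have h1 : dir n 0 = 1 := by
        unfold dir
        rw [if_pos rfl]
      have h0 : ∀ j : Fin n, dir n j.succ = 0 := by
        intro j
        unfold dir
        rw [if_neg (Fin.succ_ne_zero j)]
      simp only [h1, h0, Complex.ofReal_one, Complex.ofReal_zero, mul_one, mul_zero, zero_sub,
        neg_mul_neg, Complex.coe_algebraMap, qval, Complex.ofReal_sum, Complex.ofReal_mul, hx']
      ring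
    rw [e1] at hz
    have him := h.real_rooted (qval S x') ((z - ((x 0 : ℝ) : ℂ)) ^ 2) hz
    set w := z - ((x 0 : ℝ) : ℂ) with hw
    have hw2 : w ^ 2 = (((w ^ 2).re : ℝ) : ℂ) := by
      refine Complex.ext rfl ?_
      rw [him, Complex.ofReal_im]
    have hev : MvPolynomial.eval (fun i => (w ^ 2).re * e i - qval S x' i) P = 0 := by
      rw [hw2] at hz
      have e2 : (fun i => ((((w ^ 2).re : ℝ) : ℂ)) * (e i : ℂ) - ((qval S x' i : ℝ) : ℂ))
          = fun i => (((w ^ 2).re * e i - qval S x' i : ℝ) : ℂ) := by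
        funext i
        push_cast
        ring
      rw [e2, aeval_ofReal] at hz
      exact_mod_cast hz
    have hr := hq x' _ hev
    have him2 := real_of_sq hr hw2
    have e3 : z.im = w.im := by
      rw [hw, Complex.sub_im, Complex.ofReal_im, sub_zero]
    rw [e3]
    exact him2

/-- evaluation along the direction -/
theorem eval_quadLift_dir (P : MvPolynomial (Fin m) ℝ) (e : Fin m → ℝ)
    (S : Fin m → Matrix (Fin n) (Fin n) ℝ) (v : Fin (n + 1) → ℝ) (s : ℝ) :
    MvPolynomial.eval (fun i => s * dir n i - v i) (quadLift P e S)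
      = MvPolynomial.eval (fun i => (s - v 0) ^ 2 * e i - qval S (fun j => v j.succ) i) P := by
  rw [eval_quadLift]
  congr 2
  funext i
  have h1 : dir n 0 = 1 := by
    unfold dir
    rw [if_pos rfl]
  have h0 : ∀ j : Fin n, dir n j.succ = 0 := by
    intro j
    unfold dir
    rw [if_neg (Fin.succ_ne_zero j)]
  simp only [h1, h0, mul_one, mul_zero, zero_sub, qval, neg_mul_neg]

theorem mem_cone_quadLift {P : MvPolynomial (Fin m) ℝ} {e : Fin m → ℝ} (h : IsHyperbolic P e)
    {d : ℕ} (hd : P.IsHomogeneous d) (hd0 : d ≠ 0)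
    {S : Fin m → Matrix (Fin n) (Fin n) ℝ} (hq : ∀ x, qval S x ∈ hyperbolicityCone P e)
    (v : Fin (n + 1) → ℝ) :
    v ∈ hyperbolicityCone (quadLift P e S) (dir n) ↔
      0 ≤ v 0 ∧ (v 0) ^ 2 • e - qval S (fun j => v j.succ) ∈ hyperbolicityCone P e := by
  set q := qval S (fun j => v j.succ) with hqv
  have hroot : ∀ s : ℝ, MvPolynomial.eval (fun i => s * dir n i - v i) (quadLift P e S)
      = MvPolynomial.eval (fun i => (s - v 0) ^ 2 * e i - q i) P :=
    fun s => eval_quadLift_dir P e S v s
  have hneg : ∀ t : ℝ, MvPolynomial.eval (fun i => t * e i - ((v 0) ^ 2 • e - q) i) P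
      = (-1) ^ d * MvPolynomial.eval (fun i => ((v 0) ^ 2 - t) * e i - q i) P := by
    intro t
    rw [← eval_scale hd]
    congr 2
    funext i
    rw [Pi.sub_apply, Pi.smul_apply, smul_eq_mul]
    ring
  constructor
  · intro hv
    have key : ∀ lam : ℝ, MvPolynomial.eval (fun i => lam * e i - q i) P = 0 →
        Real.sqrt lam ≤ v 0 := by
      intro lam hlam
      have hl0 : 0 ≤ lam := hq _ lam hlam
      have h1 := hv (v 0 - Real.sqrt lam) (by
        rw [hroot]
        have e1 : (v 0 - Real.sqrt lam - v 0) ^ 2 = lam := by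
          have := Real.sq_sqrt hl0
          linear_combination this
        rw [e1]
        exact hlam)
      linarith
    refine ⟨?_, fun t ht => ?_⟩
    · obtain ⟨lam, hlam⟩ := exists_real_root h hd hd0 q
      exact (Real.sqrt_nonneg lam).trans (key lam hlam)
    · rw [hneg] at ht
      have h1 : MvPolynomial.eval (fun i => ((v 0) ^ 2 - t) * e i - q i) P = 0 := by
        rcases mul_eq_zero.mp ht with h0 | h0
        · exact absurd h0 (pow_ne_zero d (by norm_num))
        · exact h0
      have h2 := key _ h1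
      have h3 : 0 ≤ (v 0) ^ 2 - t := hq _ _ h1
      have h4 := Real.sq_sqrt h3
      have h5 := Real.sqrt_nonneg ((v 0) ^ 2 - t)
      nlinarith
  · rintro ⟨h0, hv⟩ s hs
    rw [hroot] at hs
    have h1 := hv ((v 0) ^ 2 - (s - v 0) ^ 2) (by
      rw [hneg]
      have e1 : (v 0) ^ 2 - ((v 0) ^ 2 - (s - v 0) ^ 2) = (s - v 0) ^ 2 := by ring
      rw [e1, hs, mul_zero])
    by_contra hc
    push Not at hc
    nlinarith

/-- THE CLOSURE RULE -/
theorem closure_rule {P : MvPolynomial (Fin m) ℝ} {e : Fin m → ℝ} (h : IsHyperbolic P e)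
    (hs : IsSpectrahedralShadow (hyperbolicityCone P e))
    {S : Fin m → Matrix (Fin n) (Fin n) ℝ} (hq : ∀ x, qval S x ∈ hyperbolicityCone P e) :
    IsHyperbolic (quadLift P e S) (dir n) ∧
      IsSpectrahedralShadow (hyperbolicityCone (quadLift P e S) (dir n)) := by
  refine ⟨quadLift_hyperbolic h hq, ?_⟩
  have hs' := Shd.of_isShadow hs
  obtain ⟨d, hd⟩ := h.homogeneous
  refine Shd.isShadow ?_
  by_cases hd0 : d = 0
  · -- constant polynomial: the cone is everything
    let G : (Fin (n + 1) → ℝ) →ₗ[ℝ] Matrix (Fin 0) (Fin 0) ℝ := 0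
    refine (Shd.of_linear G (fun v => Matrix.isSymm_zero)).congr fun v => ?_
    have h2 : (quadLift P e S).IsHomogeneous 0 := by
      have h3 := quadLift_homogeneous hd e S
      rw [hd0] at h3
      exact h3
    have h4 := quadLift_hyperbolic h hq
    constructor
    · intro _
      exact Matrix.PosSemidef.zero
    · intro _ t ht
      exfalso
      have h5 : ∀ u w : Fin (n + 1) → ℝ, MvPolynomial.eval u (quadLift P e S)
          = MvPolynomial.eval w (quadLift P e S) := by
        intro u w
        have h6 := eval_scale h2 0 u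
        have h7 := eval_scale h2 0 w
        rw [pow_zero, one_mul] at h6 h7
        simp only [zero_mul] at h6 h7
        rw [← h6, ← h7]
      rw [h5 _ (dir n)] at ht
      exact h4.pos.ne' ht
  · refine (core_lift (coneData h hs') hs' hq).congr fun v => ?_
    exact mem_cone_quadLift h hd hd0 hq v

end Vale.Agent.P256L
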