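import Vale.Agent.P256L.Defs

/-!
# P256: calculus of spectrahedral shadows
-/

namespace Vale.Agent.P256L

open Matrix

/-- coordinate free spectrahedral shadows -/
def Shd {V : Type} [AddCommGroup V] [Module ℝ V] (S : Set V) : Prop :=
  ∃ (ι : Type) (_ : Fintype ι) (_ : DecidableEq ι) (U : Type) (_ : AddCommGroup U)
    (_ : Module ℝ U) (_ : FiniteDimensional ℝ U) (F : (V × U) →ₗ[ℝ] Matrix ι ι ℝ)
    (C : Matrix ι ι ℝ), C.IsSymm ∧ (∀ z, (F z).IsSymm) ∧
      ∀ x, x ∈ S ↔ ∃ u, (C + F (x, u)).PosSemidef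

section basic

variable {ι κ : Type} [Fintype ι] [Fintype κ]

theorem isHermitian_iff_isSymm (M : Matrix ι ι ℝ) : M.IsHermitian ↔ M.IsSymm := by
  unfold Matrix.IsHermitian Matrix.IsSymm
  rw [Matrix.conjTranspose_eq_transpose_of_trivial]

theorem psd_iff {M : Matrix ι ι ℝ} :
    M.PosSemidef ↔ M.IsSymm ∧ ∀ x : ι → ℝ, 0 ≤ ∑ i, ∑ j, M i j * (x i * x j) := by
  rw [posSemidef_iff_dotProduct_mulVec, isHermitian_iff_isSymm]
  have h : ∀ x : ι → ℝ, star x ⬝ᵥ (M *ᵥ x) = ∑ i, ∑ j, M i j * (x i * x j) := by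
    intro x
    simp only [dotProduct, mulVec, Finset.mul_sum, star_trivial]
    refine Finset.sum_congr rfl fun i _ => Finset.sum_congr rfl fun j _ => ?_
    ring
  simp only [h]

/-- a positive semidefinite matrix is a sum of squares -/
theorem psd_decomp [DecidableEq ι] {M : Matrix ι ι ℝ} (hM : M.PosSemidef) :
    ∃ B : ι → ι → ℝ, ∀ a b, M a b = ∑ k, B k a * B k b := by
  open scoped MatrixOrder in
  obtain ⟨B, hB⟩ := CStarAlgebra.nonneg_iff_eq_star_mul_self.mp hM.nonneg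
  refine ⟨fun k a => B k a, fun a b => ?_⟩
  rw [hB, Matrix.star_eq_conjTranspose, Matrix.mul_apply]
  rfl

theorem psd_blocks {A : Matrix ι ι ℝ} {D : Matrix κ κ ℝ} :
    (fromBlocks A 0 0 D).PosSemidef ↔ A.PosSemidef ∧ D.PosSemidef := by
  rw [psd_iff, psd_iff, psd_iff]
  have hs : (fromBlocks A 0 0 D).IsSymm ↔ A.IsSymm ∧ D.IsSymm := by
    unfold Matrix.IsSymm
    rw [fromBlocks_transpose, transpose_zero, transpose_zero, fromBlocks_inj]
    tauto
  have hq : ∀ x : ι ⊕ κ → ℝ, ∑ i, ∑ j, fromBlocks A 0 0 D i j * (x i * x j)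
      = ∑ i, ∑ j, A i j * (x (Sum.inl i) * x (Sum.inl j))
        + ∑ i, ∑ j, D i j * (x (Sum.inr i) * x (Sum.inr j)) := by
    intro x
    rw [Fintype.sum_sum_type]
    simp only [Fintype.sum_sum_type, fromBlocks_apply₁₁, fromBlocks_apply₁₂, fromBlocks_apply₂₁,
      fromBlocks_apply₂₂, Matrix.zero_apply, zero_mul, Finset.sum_const_zero, add_zero, zero_add]
  rw [hs]
  constructor
  · rintro ⟨⟨h1, h2⟩, h3⟩
    refine ⟨⟨h1, fun x => ?_⟩, ⟨h2, fun x => ?_⟩⟩
    · have h4 := h3 (Sum.elim x 0)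
      rw [hq] at h4
      simpa using h4
    · have h4 := h3 (Sum.elim 0 x)
      rw [hq] at h4
      simpa using h4
  · rintro ⟨⟨h1, h2⟩, ⟨h3, h4⟩⟩
    refine ⟨⟨h1, h3⟩, fun x => ?_⟩
    rw [hq]
    exact add_nonneg (h2 _) (h4 _)

end basic

section ShdCalc

variable {V W : Type} [AddCommGroup V] [Module ℝ V] [AddCommGroup W] [Module ℝ W]

theorem Shd.comap {S : Set V} (hS : Shd S) (T : W →ₗ[ℝ] V) : Shd {w | T w ∈ S} := by
  obtain ⟨ι, _, _, U, _, _, _, F, C, hC, hF, h⟩ := hS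
  refine ⟨ι, inferInstance, inferInstance, U, inferInstance, inferInstance, inferInstance,
    F ∘ₗ (T.prodMap LinearMap.id), C, hC, fun z => hF _, fun w => ?_⟩
  exact h (T w)

theorem Shd.congr {S S' : Set V} (hS : Shd S) (h : ∀ x, x ∈ S' ↔ x ∈ S) : Shd S' := by
  have : S' = S := Set.ext h
  rw [this]
  exact hS

theorem Shd.inter {S S' : Set V} (hS : Shd S) (hS' : Shd S') : Shd {x | x ∈ S ∧ x ∈ S'} := by
  obtain ⟨ι, _, _, U, _, _, _, F, C, hC, hF, h⟩ := hS
  obtain ⟨ι', _, _, U', _, _, _, F', C', hC', hF', h'⟩ := hS'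
  let G : (V × (U × U')) →ₗ[ℝ] Matrix (ι ⊕ ι') (ι ⊕ ι') ℝ :=
    { toFun := fun z => fromBlocks (F (z.1, z.2.1)) 0 0 (F' (z.1, z.2.2))
      map_add' := fun z w => by
        have e1 : F ((z + w).1, (z + w).2.1) = F (z.1, z.2.1) + F (w.1, w.2.1) := by
          rw [← map_add]
          rfl
        have e2 : F' ((z + w).1, (z + w).2.2) = F' (z.1, z.2.2) + F' (w.1, w.2.2) := by
          rw [← map_add]
          rfl
        rw [e1, e2, fromBlocks_add, add_zero, add_zero]
      map_smul' := fun r z => by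
        have e1 : F ((r • z).1, (r • z).2.1) = r • F (z.1, z.2.1) := by
          rw [← map_smul]
          rfl
        have e2 : F' ((r • z).1, (r • z).2.2) = r • F' (z.1, z.2.2) := by
          rw [← map_smul]
          rfl
        rw [e1, e2, RingHom.id_apply, fromBlocks_smul, smul_zero, smul_zero] }
  refine ⟨ι ⊕ ι', inferInstance, inferInstance, U × U', inferInstance, inferInstance,
    inferInstance, G, fromBlocks C 0 0 C', ?_, fun z => ?_, fun x => ?_⟩
  · unfold Matrix.IsSymm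
    rw [fromBlocks_transpose, transpose_zero, transpose_zero, hC, hC']
  · change (fromBlocks (F (z.1, z.2.1)) 0 0 (F' (z.1, z.2.2))).IsSymm
    unfold Matrix.IsSymm
    rw [fromBlocks_transpose, transpose_zero, transpose_zero, hF, hF']
  · have key : ∀ u : U × U', fromBlocks C 0 0 C' + G (x, u)
        = fromBlocks (C + F (x, u.1)) 0 0 (C' + F' (x, u.2)) := by
      intro u
      change fromBlocks C 0 0 C' + fromBlocks (F (x, u.1)) 0 0 (F' (x, u.2)) = _
      rw [fromBlocks_add, add_zero, add_zero]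
    rw [Set.mem_ofPred_eq, h x, h' x]
    constructor
    · rintro ⟨⟨u, hu⟩, ⟨u', hu'⟩⟩
      refine ⟨(u, u'), ?_⟩
      rw [key, psd_blocks]
      exact ⟨hu, hu'⟩
    · rintro ⟨u, hu⟩
      rw [key, psd_blocks] at hu
      exact ⟨⟨u.1, hu.1⟩, ⟨u.2, hu.2⟩⟩

theorem Shd.proj {S : Set (V × W)} [FiniteDimensional ℝ W] (hS : Shd S) :
    Shd {v : V | ∃ w : W, (v, w) ∈ S} := by
  obtain ⟨ι, _, _, U, _, _, _, F, C, hC, hF, h⟩ := hS
  let A : (V × (W × U)) →ₗ[ℝ] ((V × W) × U) :=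
    { toFun := fun z => ((z.1, z.2.1), z.2.2)
      map_add' := fun z w => rfl
      map_smul' := fun r z => rfl }
  refine ⟨ι, inferInstance, inferInstance, W × U, inferInstance, inferInstance, inferInstance,
    F ∘ₗ A, C, hC, fun z => hF _, fun v => ?_⟩
  rw [Set.mem_ofPred_eq]
  constructor
  · rintro ⟨w, hw⟩
    obtain ⟨u, hu⟩ := (h (v, w)).mp hw
    exact ⟨(w, u), hu⟩
  · rintro ⟨u, hu⟩
    exact ⟨u.1, (h (v, u.1)).mpr ⟨u.2, hu⟩⟩

theorem Shd.of_linear {ι : Type} [Fintype ι] [DecidableEq ι] (G : V →ₗ[ℝ] Matrix ι ι ℝ)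
    (hG : ∀ v, (G v).IsSymm) : Shd {v | (G v).PosSemidef} := by
  refine ⟨ι, inferInstance, inferInstance, (Fin 0 → ℝ), inferInstance, inferInstance,
    inferInstance, G ∘ₗ LinearMap.fst ℝ V (Fin 0 → ℝ), 0, ?_, fun z => hG _, fun v => ?_⟩
  · exact Matrix.isSymm_zero
  · rw [Set.mem_ofPred_eq]
    constructor
    · intro h
      refine ⟨0, ?_⟩
      rw [zero_add]
      exact h
    · rintro ⟨u, hu⟩
      rw [zero_add] at hu
      exact hu

theorem Shd.convex {S : Set V} (hS : Shd S) {x y : V} (hx : x ∈ S) (hy : y ∈ S) {a b : ℝ}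
    (ha : 0 ≤ a) (hb : 0 ≤ b) (hab : a + b = 1) : a • x + b • y ∈ S := by
  obtain ⟨ι, _, _, U, _, _, _, F, C, hC, hF, h⟩ := hS
  obtain ⟨u, hu⟩ := (h x).mp hx
  obtain ⟨w, hw⟩ := (h y).mp hy
  refine (h _).mpr ⟨a • u + b • w, ?_⟩
  have e : C + F (a • x + b • y, a • u + b • w) = a • (C + F (x, u)) + b • (C + F (y, w)) := by
    have e1 : ((a • x + b • y, a • u + b • w) : V × U) = a • (x, u) + b • (y, w) := rfl
    rw [e1, map_add, map_smul, map_smul, smul_add, smul_add]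
    have e2 : C = a • C + b • C := by rw [← add_smul, hab, one_smul]
    nth_rewrite 1 [e2]
    abel
  rw [e]
  exact (hu.smul ha).add (hw.smul hb)

end ShdCalc

theorem Shd.of_isShadow {n : ℕ} {S : Set (Fin n → ℝ)} (h : IsSpectrahedralShadow S) : Shd S := by
  obtain ⟨N, a, A₀, A, B, h0, hA, hB, rfl⟩ := h
  let F : ((Fin n → ℝ) × (Fin a → ℝ)) →ₗ[ℝ] Matrix (Fin N) (Fin N) ℝ :=
    { toFun := fun z => ∑ i, z.1 i • A i + ∑ j, z.2 j • B j
      map_add' := fun z w => by
        simp only [Prod.fst_add, Prod.snd_add, Pi.add_apply, add_smul, Finset.sum_add_distrib]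
        abel
      map_smul' := fun r z => by
        simp only [Prod.smul_fst, Prod.smul_snd, Pi.smul_apply, smul_eq_mul, mul_smul,
          RingHom.id_apply, smul_add, Finset.smul_sum] }
  have hsum : ∀ {k : ℕ} (f : Fin k → ℝ) (M : Fin k → Matrix (Fin N) (Fin N) ℝ),
      (∀ i, (M i).IsSymm) → (∑ i, f i • M i).IsSymm := by
    intro k f M hM
    unfold Matrix.IsSymm
    rw [transpose_sum]
    refine Finset.sum_congr rfl fun i _ => ?_
    rw [transpose_smul, hM i]
  refine ⟨Fin N, inferInstance, inferInstance, (Fin a → ℝ), inferInstance, inferInstance,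
    inferInstance, F, A₀, h0, fun z => ?_, fun x => ?_⟩
  · exact (hsum z.1 A hA).add (hsum z.2 B hB)
  · rw [Set.mem_ofPred_eq]
    constructor
    · rintro ⟨u, hu⟩
      refine ⟨u, ?_⟩
      rw [add_assoc] at hu
      exact hu
    · rintro ⟨u, hu⟩
      refine ⟨u, ?_⟩
      rw [add_assoc]
      exact hu

theorem Shd.isShadow {n : ℕ} {S : Set (Fin n → ℝ)} (h : Shd S) : IsSpectrahedralShadow S := by
  obtain ⟨ι, _, _, U, _, _, _, F, C, hC, hF, h⟩ := h
  let b := Module.finBasis ℝ U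
  let φ := (Fintype.equivFin ι).symm
  refine ⟨Fintype.card ι, Module.finrank ℝ U, C.submatrix φ φ,
    fun i => (F (Pi.single i 1, 0)).submatrix φ φ, fun j => (F (0, b j)).submatrix φ φ,
    hC.submatrix _, fun i => (hF _).submatrix _, fun j => (hF _).submatrix _, ?_⟩
  ext x
  rw [Set.mem_ofPred_eq, h x]
  have key : ∀ u : Fin (Module.finrank ℝ U) → ℝ,
      C.submatrix φ φ + ∑ i, x i • (F (Pi.single i 1, 0)).submatrix φ φ
        + ∑ j, u j • (F (0, b j)).submatrix φ φ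
      = (C + F (x, ∑ j, u j • b j)).submatrix φ φ := by
    intro u
    have e1 : ((x, ∑ j, u j • b j) : (Fin n → ℝ) × U)
        = ∑ i, x i • ((Pi.single i 1, 0) : (Fin n → ℝ) × U) + ∑ j, u j • ((0, b j) : _ × U) := by
      refine Prod.ext ?_ ?_
      · rw [Prod.fst_add, Prod.fst_sum, Prod.fst_sum]
        simp only [Prod.smul_fst, smul_zero, Finset.sum_const_zero, add_zero]
        exact pi_eq_sum_univ' x
      · rw [Prod.snd_add, Prod.snd_sum, Prod.snd_sum]
        simp only [Prod.smul_snd, smul_zero, Finset.sum_const_zero, zero_add]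
    rw [e1, map_add, map_sum, map_sum]
    ext r s
    simp only [Matrix.add_apply, Matrix.sum_apply, Matrix.smul_apply, submatrix_apply, map_smul]
    ring
  constructor
  · rintro ⟨u, hu⟩
    refine ⟨fun j => b.repr u j, ?_⟩
    rw [key, b.sum_repr]
    exact (posSemidef_submatrix_equiv φ).mpr hu
  · rintro ⟨u, hu⟩
    rw [key] at hu
    exact ⟨_, (posSemidef_submatrix_equiv φ).mp hu⟩

end Vale.Agent.P256L
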