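import Vale.Agent.P256L.Det

/-!
# P256: products, linear substitutions, the tower, even quartics, quadratic matrix polynomials
-/

namespace Vale.Agent.P256L

open Matrix

variable {m n N : ℕ}

theorem mul_hyperbolic {p p' : MvPolynomial (Fin n) ℝ} {e : Fin n → ℝ} (h : IsHyperbolic p e)
    (h' : IsHyperbolic p' e) : IsHyperbolic (p * p') e := by
  obtain ⟨d, hd⟩ := h.homogeneous
  obtain ⟨d', hd'⟩ := h'.homogeneous
  refine ⟨⟨d + d', hd.mul hd'⟩, ?_, fun x z hz => ?_⟩
  · rw [map_mul]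
    exact mul_pos h.pos h'.pos
  · rw [map_mul] at hz
    rcases mul_eq_zero.mp hz with h0 | h0
    · exact h.real_rooted x z h0
    · exact h'.real_rooted x z h0

theorem mem_cone_mul {p p' : MvPolynomial (Fin n) ℝ} {e : Fin n → ℝ} (x : Fin n → ℝ) :
    x ∈ hyperbolicityCone (p * p') e ↔
      x ∈ hyperbolicityCone p e ∧ x ∈ hyperbolicityCone p' e := by
  rw [mem_cone, mem_cone, mem_cone]
  constructor
  · intro h
    refine ⟨fun t ht => h t ?_, fun t ht => h t ?_⟩
    · rw [map_mul, ht, zero_mul]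
    · rw [map_mul, ht, mul_zero]
  · rintro ⟨h1, h2⟩ t ht
    rw [map_mul] at ht
    rcases mul_eq_zero.mp ht with h0 | h0
    · exact h1 t h0
    · exact h2 t h0

theorem mul_shadow {p p' : MvPolynomial (Fin n) ℝ} {e : Fin n → ℝ}
    (h : IsSpectrahedralShadow (hyperbolicityCone p e))
    (h' : IsSpectrahedralShadow (hyperbolicityCone p' e)) :
    IsSpectrahedralShadow (hyperbolicityCone (p * p') e) :=
  (((Shd.of_isShadow h).inter (Shd.of_isShadow h')).congr fun x => mem_cone_mul x).isShadow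

/-- the polynomial `P(L x)` -/
noncomputable def linSub (L : Matrix (Fin m) (Fin n) ℝ) (P : MvPolynomial (Fin m) ℝ) :
    MvPolynomial (Fin n) ℝ :=
  MvPolynomial.aeval (fun i => ∑ j, MvPolynomial.C (L i j) * MvPolynomial.X j) P

theorem aeval_linSub {R : Type} [CommRing R] [Algebra ℝ R] (L : Matrix (Fin m) (Fin n) ℝ)
    (P : MvPolynomial (Fin m) ℝ) (v : Fin n → R) :
    MvPolynomial.aeval v (linSub L P)
      = MvPolynomial.aeval (fun i => ∑ j, algebraMap ℝ R (L i j) * v j) P := by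
  unfold linSub
  rw [← AlgHom.comp_apply, MvPolynomial.comp_aeval]
  congr 2
  funext i
  simp only [map_sum, map_mul, MvPolynomial.aeval_X, MvPolynomial.aeval_C]

theorem eval_linSub (L : Matrix (Fin m) (Fin n) ℝ) (P : MvPolynomial (Fin m) ℝ) (v : Fin n → ℝ) :
    MvPolynomial.eval v (linSub L P) = MvPolynomial.eval (L *ᵥ v) P := by
  rw [← aeval_real, aeval_linSub, aeval_real]
  rfl

theorem linSub_hyperbolic {P : MvPolynomial (Fin m) ℝ} {e : Fin m → ℝ} (h : IsHyperbolic P e)
    {L : Matrix (Fin m) (Fin n) ℝ} {e' : Fin n → ℝ} (hL : L *ᵥ e' = e) :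
    IsHyperbolic (linSub L P) e' := by
  obtain ⟨d, hd⟩ := h.homogeneous
  refine ⟨⟨1 * d, hd.aeval _ fun i => MvPolynomial.IsHomogeneous.sum _ _ _ fun j _ =>
    (MvPolynomial.isHomogeneous_X _ j).C_mul _⟩, ?_, fun x z hz => ?_⟩
  · rw [eval_linSub, hL]
    exact h.pos
  · rw [aeval_linSub] at hz
    refine h.real_rooted (L *ᵥ x) z ?_
    have e1 : (fun i => ∑ j, algebraMap ℝ ℂ (L i j) * (z * (e' j : ℂ) - (x j : ℂ)))
        = fun i => z * (e i : ℂ) - ((L *ᵥ x) i : ℂ) := by
      funext i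
      rw [← hL]
      simp only [mulVec, dotProduct, Complex.ofReal_sum, Complex.ofReal_mul,
        Complex.coe_algebraMap, Finset.mul_sum, ← Finset.sum_sub_distrib]
      refine Finset.sum_congr rfl fun j _ => ?_
      ring
    rw [← e1]
    exact hz

theorem linSub_shadow {P : MvPolynomial (Fin m) ℝ} {e : Fin m → ℝ}
    (h : IsSpectrahedralShadow (hyperbolicityCone P e))
    {L : Matrix (Fin m) (Fin n) ℝ} {e' : Fin n → ℝ} (hL : L *ᵥ e' = e) :
    IsSpectrahedralShadow (hyperbolicityCone (linSub L P) e') := by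
  refine Shd.isShadow ?_
  refine ((Shd.of_isShadow h).comap (Matrix.mulVecLin L)).congr fun x => ?_
  rw [Set.mem_ofPred_eq, mem_cone, mem_cone, mulVecLin_apply]
  have e1 : ∀ t : ℝ, MvPolynomial.eval (fun i => t * e' i - x i) (linSub L P)
      = MvPolynomial.eval (fun i => t * e i - (L *ᵥ x) i) P := by
    intro t
    rw [eval_linSub]
    congr 2
    funext i
    rw [← hL]
    simp only [mulVec, dotProduct, Finset.mul_sum, ← Finset.sum_sub_distrib]
    refine Finset.sum_congr rfl fun j _ => ?_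
    ring
  simp only [e1]

theorem smul_hyperbolic {P : MvPolynomial (Fin m) ℝ} {e : Fin m → ℝ} (h : IsHyperbolic P e)
    {c : ℝ} (hc : 0 < c) : IsHyperbolic (MvPolynomial.C c * P) e := by
  obtain ⟨d, hd⟩ := h.homogeneous
  refine ⟨⟨d, hd.C_mul c⟩, ?_, fun x z hz => h.real_rooted x z ?_⟩
  · rw [map_mul, MvPolynomial.eval_C]
    exact mul_pos hc h.pos
  · rw [map_mul, MvPolynomial.aeval_C] at hz
    rcases mul_eq_zero.mp hz with h0 | h0
    · exfalso
      rw [Complex.coe_algebraMap] at h0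
      exact hc.ne' (by exact_mod_cast h0)
    · exact h0

theorem cone_smul_eq {P : MvPolynomial (Fin m) ℝ} {e : Fin m → ℝ} {c : ℝ} (hc : 0 < c) :
    hyperbolicityCone (MvPolynomial.C c * P) e = hyperbolicityCone P e := by
  ext x
  rw [mem_cone, mem_cone]
  simp only [map_mul, MvPolynomial.eval_C, mul_eq_zero, hc.ne', false_or]

/-- the smallest class of pairs `(p, e)` containing the definite determinantal polynomials and
closed under products, linear substitutions, and `P ↦ P(t² e - q(x))` for every quadratic map `q`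
with values in the hyperbolicity cone of `P` -/
inductive Tower : (n : ℕ) → MvPolynomial (Fin n) ℝ → (Fin n → ℝ) → Prop
  | det {n N : ℕ} (c : ℝ) (A : Fin n → Matrix (Fin N) (Fin N) ℝ) (e : Fin n → ℝ) (hc : 0 < c)
      (hA : ∀ i, (A i).IsSymm) (he : (∑ i, e i • A i).PosDef) :
      Tower n (MvPolynomial.C c * detPoly A) e
  | mul {n : ℕ} (p p' : MvPolynomial (Fin n) ℝ) (e : Fin n → ℝ) (h : Tower n p e)
      (h' : Tower n p' e) : Tower n (p * p') e
  | linear {m n : ℕ} (P : MvPolynomial (Fin m) ℝ) (e : Fin m → ℝ) (L : Matrix (Fin m) (Fin n) ℝ)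
      (e' : Fin n → ℝ) (h : Tower m P e) (hL : L *ᵥ e' = e) : Tower n (linSub L P) e'
  | quad {m n : ℕ} (P : MvPolynomial (Fin m) ℝ) (e : Fin m → ℝ)
      (S : Fin m → Matrix (Fin n) (Fin n) ℝ) (h : Tower m P e)
      (hq : ∀ x : Fin n → ℝ,
        (fun i => MvPolynomial.eval x (quadForm (S i))) ∈ hyperbolicityCone P e) :
      Tower (n + 1) (quadLift P e S) (dir n)

theorem tower_main {n : ℕ} {p : MvPolynomial (Fin n) ℝ} {e : Fin n → ℝ} (h : Tower n p e) :
    IsHyperbolic p e ∧ IsSpectrahedralShadow (hyperbolicityCone p e) := by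
  induction h with
  | det c A e hc hA he =>
    refine ⟨smul_hyperbolic (detPoly_hyperbolic hA he) hc, ?_⟩
    rw [cone_smul_eq hc]
    exact detPoly_shadow hA he
  | mul p p' e h h' ih ih' => exact ⟨mul_hyperbolic ih.1 ih'.1, mul_shadow ih.2 ih'.2⟩
  | linear P e L e' h hL ih => exact ⟨linSub_hyperbolic ih.1 hL, linSub_shadow ih.2 hL⟩
  | quad P e S h hq ih =>
    refine closure_rule ih.1 ih.2 fun x => ?_
    rw [← qval_eq]
    exact hq x

/-! ### Even quartics -/

/-- the Lorentz polynomial -/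
noncomputable def lorentz (k : ℕ) : MvPolynomial (Fin (k + 1)) ℝ :=
  MvPolynomial.X 0 ^ 2 - ∑ j : Fin k, MvPolynomial.X j.succ ^ 2

theorem X0_hyperbolic : IsHyperbolic (MvPolynomial.X 0 : MvPolynomial (Fin 1) ℝ) (fun _ => 1) := by
  refine ⟨⟨1, MvPolynomial.isHomogeneous_X _ 0⟩, ?_, fun x z hz => ?_⟩
  · rw [MvPolynomial.eval_X]
    exact one_pos
  · rw [MvPolynomial.aeval_X] at hz
    have h1 := congrArg Complex.im hz
    simpa using h1

theorem mem_cone_X0 (x : Fin 1 → ℝ) :
    x ∈ hyperbolicityCone (MvPolynomial.X 0 : MvPolynomial (Fin 1) ℝ) (fun _ => 1) ↔ 0 ≤ x 0 := by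
  rw [mem_cone]
  simp only [MvPolynomial.eval_X, mul_one]
  constructor
  · intro h
    exact h (x 0) (sub_self _)
  · intro h t ht
    linarith

theorem X0_shadow : IsSpectrahedralShadow
    (hyperbolicityCone (MvPolynomial.X 0 : MvPolynomial (Fin 1) ℝ) (fun _ => 1)) := by
  refine Shd.isShadow ?_
  let G : (Fin 1 → ℝ) →ₗ[ℝ] Matrix (Fin 1) (Fin 1) ℝ :=
    { toFun := fun x => Matrix.of fun _ _ => x 0
      map_add' := fun x y => rfl
      map_smul' := fun r x => rfl }
  refine (Shd.of_linear G (fun x => ?_)).congr fun x => ?_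
  · ext i j
    rfl
  · rw [mem_cone_X0, Set.mem_ofPred_eq, psd_iff]
    constructor
    · intro h
      refine ⟨by ext i j; rfl, fun y => ?_⟩
      rw [Fin.sum_univ_one, Fin.sum_univ_one]
      exact mul_nonneg h (mul_self_nonneg _)
    · rintro ⟨-, h⟩
      have h1 := h (fun _ => 1)
      rw [Fin.sum_univ_one, Fin.sum_univ_one] at h1
      change 0 ≤ x 0 * (1 * 1) at h1
      linarith

theorem quadForm_one (k : ℕ) : quadForm (1 : Matrix (Fin k) (Fin k) ℝ)
    = ∑ j : Fin k, MvPolynomial.X j ^ 2 := by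
  unfold quadForm
  refine Finset.sum_congr rfl fun a _ => ?_
  rw [Finset.sum_eq_single a]
  · rw [Matrix.one_apply_eq, map_one, one_mul, sq]
  · intro b _ hb
    rw [Matrix.one_apply_ne hb.symm, map_zero, zero_mul]
  · intro h0
    exact absurd (Finset.mem_univ _) h0

theorem lorentz_eq (k : ℕ) : lorentz k
    = quadLift (MvPolynomial.X 0 : MvPolynomial (Fin 1) ℝ) (fun _ => 1)
      (fun _ => (1 : Matrix (Fin k) (Fin k) ℝ)) := by
  unfold lorentz quadLift
  rw [MvPolynomial.aeval_X, quadForm_one, map_sum, map_one, one_mul]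
  simp only [map_pow, MvPolynomial.rename_X]

theorem lorentz_qval (k : ℕ) (x : Fin k → ℝ) :
    qval (fun _ : Fin 1 => (1 : Matrix (Fin k) (Fin k) ℝ)) x 0 = ∑ j, x j ^ 2 := by
  have h1 := congrFun (qval_eq (fun _ : Fin 1 => (1 : Matrix (Fin k) (Fin k) ℝ)) x) 0
  rw [← h1, quadForm_one, map_sum]
  simp only [map_pow, MvPolynomial.eval_X]

theorem lorentz_hq (k : ℕ) (x : Fin k → ℝ) :
    qval (fun _ : Fin 1 => (1 : Matrix (Fin k) (Fin k) ℝ)) x ∈
      hyperbolicityCone (MvPolynomial.X 0 : MvPolynomial (Fin 1) ℝ) (fun _ => 1) := by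
  rw [mem_cone_X0, lorentz_qval]
  exact Finset.sum_nonneg fun j _ => sq_nonneg _

theorem lorentz_main (k : ℕ) : IsHyperbolic (lorentz k) (dir k) ∧
    IsSpectrahedralShadow (hyperbolicityCone (lorentz k) (dir k)) := by
  rw [lorentz_eq]
  exact closure_rule X0_hyperbolic X0_shadow (lorentz_hq k)

theorem mem_cone_lorentz (k : ℕ) (v : Fin (k + 1) → ℝ) :
    v ∈ hyperbolicityCone (lorentz k) (dir k) ↔ 0 ≤ v 0 ∧ ∑ j : Fin k, v j.succ ^ 2 ≤ v 0 ^ 2 := by
  rw [lorentz_eq, mem_cone_quadLift X0_hyperbolic (MvPolynomial.isHomogeneous_X _ 0) one_ne_zero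
    (lorentz_hq k), mem_cone_X0, Pi.sub_apply, Pi.smul_apply, lorentz_qval, smul_eq_mul, mul_one,
    sub_nonneg]

/-- the quartic `(t² - a(x))² - ∑ q_i(x)²` -/
noncomputable def evenQuartic {n k : ℕ} (a : Matrix (Fin n) (Fin n) ℝ)
    (q : Fin k → Matrix (Fin n) (Fin n) ℝ) : MvPolynomial (Fin (n + 1)) ℝ :=
  (MvPolynomial.X 0 ^ 2 - MvPolynomial.rename Fin.succ (quadForm a)) ^ 2
    - ∑ i, (MvPolynomial.rename Fin.succ (quadForm (q i))) ^ 2

theorem evenQuartic_eq {n k : ℕ} (a : Matrix (Fin n) (Fin n) ℝ)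
    (q : Fin k → Matrix (Fin n) (Fin n) ℝ) : evenQuartic a q
      = quadLift (lorentz k) (dir k) (Fin.cons a q : Fin (k + 1) → Matrix (Fin n) (Fin n) ℝ) := by
  unfold evenQuartic quadLift lorentz
  rw [map_sub, map_pow, MvPolynomial.aeval_X, map_sum]
  have h1 : dir k 0 = 1 := by
    unfold dir
    rw [if_pos rfl]
  have h0 : ∀ j : Fin k, dir k j.succ = 0 := by
    intro j
    unfold dir
    rw [if_neg (Fin.succ_ne_zero j)]
  rw [h1, map_one, one_mul, Fin.cons_zero]
  congr 1
  refine Finset.sum_congr rfl fun j _ => ?_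
  rw [map_pow, MvPolynomial.aeval_X, h0, map_zero, zero_mul, zero_sub, Fin.cons_succ, neg_sq]

theorem evenQuartic_main {n k : ℕ} (a : Matrix (Fin n) (Fin n) ℝ)
    (q : Fin k → Matrix (Fin n) (Fin n) ℝ) (h : IsHyperbolic (evenQuartic a q) (dir n)) :
    IsSpectrahedralShadow (hyperbolicityCone (evenQuartic a q) (dir n)) := by
  have hq : ∀ x : Fin n → ℝ, qval (Fin.cons a q : Fin (k + 1) → Matrix (Fin n) (Fin n) ℝ) x ∈
      hyperbolicityCone (lorentz k) (dir k) := by
    intro x
    rw [mem_cone_lorentz]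
    set A := MvPolynomial.eval x (quadForm a) with hA
    set D := ∑ j, (MvPolynomial.eval x (quadForm (q j))) ^ 2 with hD
    have hv := qval_eq (Fin.cons a q : Fin (k + 1) → Matrix (Fin n) (Fin n) ℝ) x
    have hv0 : qval (Fin.cons a q : Fin (k + 1) → Matrix (Fin n) (Fin n) ℝ) x 0 = A := by
      rw [← hv]
      rfl
    have hvs : ∀ j : Fin k, qval (Fin.cons a q : Fin (k + 1) → Matrix (Fin n) (Fin n) ℝ) x j.succ
        = MvPolynomial.eval x (quadForm (q j)) := by
      intro j
      rw [← hv]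
      rfl
    simp only [hv0, hvs]
    rw [← hD]
    have hD0 : 0 ≤ D := Finset.sum_nonneg fun j _ => sq_nonneg _
    have key : Real.sqrt D ≤ A := by
      obtain ⟨z, hz⟩ := IsAlgClosed.exists_pow_nat_eq (((A - Real.sqrt D : ℝ)) : ℂ) (n := 2)
        (by norm_num)
      have h1 := h.real_rooted (Fin.cons 0 (-x) : Fin (n + 1) → ℝ) z (by
        unfold evenQuartic
        have hr : ∀ (M : Matrix (Fin n) (Fin n) ℝ), MvPolynomial.aeval
            (fun i => z * ((dir n i : ℝ) : ℂ)
              - (((Fin.cons 0 (-x) : Fin (n + 1) → ℝ) i : ℝ) : ℂ))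
            (MvPolynomial.rename Fin.succ (quadForm M))
            = ((MvPolynomial.eval x (quadForm M) : ℝ) : ℂ) := by
          intro M
          rw [MvPolynomial.aeval_rename, ← aeval_ofReal]
          congr 2
          funext i
          rw [Function.comp_apply, Fin.cons_succ]
          unfold dir
          rw [if_neg (Fin.succ_ne_zero i), Pi.neg_apply]
          push_cast
          ring
        rw [map_sub, map_pow, map_sub, map_pow, MvPolynomial.aeval_X, hr, map_sum]
        simp only [map_pow, hr]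
        rw [Fin.cons_zero]
        have hd1 : dir n 0 = 1 := by
          unfold dir
          rw [if_pos rfl]
        rw [hd1, Complex.ofReal_one, Complex.ofReal_zero, mul_one, sub_zero, hz, ← hA]
        have h3 : (∑ j, ((MvPolynomial.eval x (quadForm (q j)) : ℝ) : ℂ) ^ 2) = ((D : ℝ) : ℂ) := by
          rw [hD]
          push_cast
          rfl
        rw [h3]
        have h4 : ((Real.sqrt D : ℝ) : ℂ) ^ 2 = ((D : ℝ) : ℂ) := by
          rw [← Complex.ofReal_pow, Real.sq_sqrt hD0]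
        push_cast
        linear_combination h4)
      have h2 := congrArg Complex.re hz
      rw [sq, Complex.mul_re, h1, mul_zero, sub_zero, Complex.ofReal_re] at h2
      nlinarith [mul_self_nonneg z.re]
    refine ⟨(Real.sqrt_nonneg D).trans key, ?_⟩
    have h5 := Real.sq_sqrt hD0
    have h6 := Real.sqrt_nonneg D
    nlinarith
  rw [evenQuartic_eq]
  exact (closure_rule (lorentz_main k).1 (lorentz_main k).2 hq).2

/-! ### Quadratic matrix polynomials -/

/-- the polynomial `det(t² E - ∑ x_a x_b C_ab)` -/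
noncomputable def matQuadPoly {n N : ℕ} (E : Matrix (Fin N) (Fin N) ℝ)
    (C : Fin n → Fin n → Matrix (Fin N) (Fin N) ℝ) : MvPolynomial (Fin (n + 1)) ℝ :=
  (Matrix.of fun i j => MvPolynomial.C (E i j) * MvPolynomial.X 0 ^ 2
    - ∑ a, ∑ b, MvPolynomial.C (C a b i j) * (MvPolynomial.X (Fin.succ a) *
        MvPolynomial.X (Fin.succ b))).det

end Vale.Agent.P256L
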